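import Vale.Agent.P287.R2.H248.Start
import Vale.Agent.P287.R2.H114.Open
import Vale.Agent.P287.R2.H946.Closed
import Vale.Agent.P287.R2.H946.Transfer
import Vale.Agent.P287.R2.H414.Path

/-!
P287: a smooth cubic surface over the complex numbers contains a line, given that only finitely
many members of each pencil `F - t ℓ ^ 3` are singular.
-/

namespace Vale.Agent.P287.R2.H248

open Module Submodule

theorem line_of_bad
    (hbad : ∀ S : Tri (Fin 4 → ℂ), S.Smooth → ∀ l : (Fin 4 → ℂ) →ₗ[ℂ] ℂ,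
      {t : ℂ | ¬ (S.pert l t).Smooth}.Finite)
    (S : Tri (Fin 4 → ℂ)) (hS : S.Smooth) :
    ∃ U : Submodule ℂ (Fin 4 → ℂ), finrank ℂ U = 2 ∧ S.Iso U := by
  rcases Tri.start hS (by simp) with h | ⟨l, c, U, hU, hI, hnd⟩
  · exact h
  · exact H414.line_of_path hS l (hbad S hS l) (fun t0 U' h1 h2 h3 => H114.open_line l t0 U' h1 h2 h3)
      (H946.closed_line S l) c U hU hI hnd

theorem eckardt_has_plane
    (hbad : ∀ S : Tri (Fin 4 → ℂ), S.Smooth → ∀ l : (Fin 4 → ℂ) →ₗ[ℂ] ℂ,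
      {t : ℂ | ¬ (S.pert l t).Smooth}.Finite)
    {F : MvPolynomial (Fin 6) ℂ} (hF : IsCubicFourfold F) {p : A6} (hp : IsEckardt F p) :
    ∃ P, IsPlaneIn F P ∧ p ∈ P := by
  obtain ⟨P, h1, h2, h3⟩ := H946.plane_of_eckardt (line_of_bad hbad) (pol_smooth hF) (by simp)
    (pol_eckardt hF.1 hp)
  exact ⟨P, ⟨h1, (pol_iso hF.1).mp h2⟩, h3⟩

theorem two_eckardt_all
    (hbad : ∀ S : Tri (Fin 4 → ℂ), S.Smooth → ∀ l : (Fin 4 → ℂ) →ₗ[ℂ] ℂ,
      {t : ℂ | ¬ (S.pert l t).Smooth}.Finite)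
    {F : MvPolynomial (Fin 6) ℂ} (hF : IsCubicFourfold F) {p q : A6} (hp : IsEckardt F p)
    (hq : IsEckardt F q) (hpq : q ∉ span ℂ {p}) :
    ∃ P Q, IsPlaneIn F P ∧ IsPlaneIn F Q ∧ Disjoint P Q := by
  obtain ⟨P, hP, -⟩ := eckardt_has_plane hbad hF hp
  exact two_eckardt hF hp hq hpq (Or.inl ⟨P, hP⟩)

end Vale.Agent.P287.R2.H248
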