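import Vale.Agent.P287.R2.H248.Pert

/-!
P287: only finitely many members of the pencil `F - t ℓ ^ 3` are singular, `F` smooth.
-/

namespace Vale.Agent.P287.R2.H248

open Module MvPolynomial

attribute [local instance] MvPolynomial.gradedAlgebra

lemma hc_mul {c q : MvPolynomial (Fin 4) ℂ} {N : ℕ} (hq : q.IsHomogeneous 2) (hN : 2 ≤ N) :
    homogeneousComponent N (c * q) = homogeneousComponent (N - 2) c * q := by
  have h1 := DirectSum.coe_decompose_mul_of_right_mem_of_le
    (𝒜 := homogeneousSubmodule (Fin 4) ℂ) (a := c) (b := q) (i := 2) (n := N)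
    ((mem_homogeneousSubmodule 2 q).mpr hq) hN
  rw [← decomposition.decompose'_apply (R := ℂ) (c * q) N,
    ← decomposition.decompose'_apply (R := ℂ) c (N - 2)]
  exact h1

variable (S : Tri (Fin 4 → ℂ))

/-- The partial derivatives of the cubic form, up to a factor. -/
noncomputable def qq (i : Fin 4) : MvPolynomial (Fin 4) ℂ :=
  ∑ a, ∑ b, C (S.T (Pi.single a 1) (Pi.single b 1) (Pi.single i 1)) * (X a * X b)

lemma eval_qq (i : Fin 4) (v : Fin 4 → ℂ) : eval v (qq S i) = S.T v v (Pi.single i 1) := by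
  have hv : v = ∑ a, v a • (Pi.single a 1 : Fin 4 → ℂ) := pi_eq_sum_univ' v
  conv_rhs => rw [hv]
  simp only [qq, map_sum, map_mul, eval_C, eval_X, map_smul, LinearMap.sum_apply,
    LinearMap.smul_apply, smul_eq_mul, Finset.mul_sum]
  rw [Finset.sum_comm]
  refine Finset.sum_congr rfl fun a _ => Finset.sum_congr rfl fun b _ => ?_
  ring

lemma qq_hom (i : Fin 4) : (qq S i).IsHomogeneous 2 := by
  refine IsHomogeneous.sum _ _ _ fun a _ => IsHomogeneous.sum _ _ _ fun b _ => ?_
  have h1 := (isHomogeneous_C (Fin 4)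
    (S.T (Pi.single a 1) (Pi.single b 1) (Pi.single i 1))).mul
    ((isHomogeneous_X ℂ a).mul (isHomogeneous_X ℂ b))
  simpa using h1

lemma T_single (f : (Fin 4 → ℂ) →ₗ[ℂ] ℂ) (h : ∀ i, f (Pi.single i 1) = 0) :
    f = 0 := by
  apply LinearMap.pi_ext
  intro i x
  have : (Pi.single i x : Fin 4 → ℂ) = x • Pi.single i 1 := by
    rw [← Pi.single_smul, smul_eq_mul, mul_one]
  rw [this, map_smul, h i]
  simp

variable {S}

/-- Nullstellensatz for the partial derivatives. -/
lemma exists_pow (hS : S.Smooth) : ∃ n : ℕ, 2 ≤ n ∧ ∀ d : Fin 4 →₀ ℕ, (∑ i, d i) = n →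
    monomial d (1 : ℂ) ∈ Ideal.span (Set.range (qq S)) := by
  set I := Ideal.span (Set.range (qq S)) with hI
  have hrad : ∀ j, (X j : MvPolynomial (Fin 4) ℂ) ∈ I.radical := by
    intro j
    rw [← vanishingIdeal_zeroLocus_eq_radical (K := ℂ) I, mem_vanishingIdeal_iff]
    intro v hv
    rw [mem_zeroLocus_iff] at hv
    have h1 : ∀ i, S.T v v (Pi.single i 1) = 0 := by
      intro i
      rw [← eval_qq]
      have := hv (qq S i) (Ideal.subset_span ⟨i, rfl⟩)
      rwa [aeval_def, ← coe_eval₂Hom, Algebra.algebraMap_self] at this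
    have h2 : v = 0 := hS v (fun w => by rw [T_single (S.T v v) h1]; rfl)
    rw [h2]
    simp
  obtain ⟨n, hn⟩ := Ideal.exists_radical_pow_le_of_fg I (IsNoetherian.noetherian _)
  refine ⟨n + 2, by omega, fun d hd => hn (Ideal.pow_le_pow_right (Nat.le_add_right n 2) ?_)⟩
  have h1 : monomial d (1 : ℂ) = ∏ i, (X i : MvPolynomial (Fin 4) ℂ) ^ d i := by
    rw [monomial_eq, C_1, one_mul, Finsupp.prod_fintype]
    intro i
    rw [pow_zero]
  have h2 : ∏ i, (X i : MvPolynomial (Fin 4) ℂ) ^ d i ∈ ∏ i : Fin 4, I.radical ^ d i :=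
    Ideal.prod_mem_prod fun i _ => Ideal.pow_mem_pow (hrad i) _
  rw [Finset.prod_pow_eq_pow_sum, hd] at h2
  rw [h1]
  exact h2

lemma exists_hom (hS : S.Smooth) : ∃ n : ℕ, 2 ≤ n ∧ ∀ d : Fin 4 →₀ ℕ, (∑ i, d i) = n →
    ∃ g : Fin 4 → MvPolynomial (Fin 4) ℂ, (∀ i, (g i).IsHomogeneous (n - 2)) ∧
      ∑ i, g i * qq S i = monomial d (1 : ℂ) := by
  obtain ⟨n, hn2, hn⟩ := exists_pow hS
  refine ⟨n, hn2, fun d hd => ?_⟩
  obtain ⟨c, hc⟩ := Ideal.mem_span_range_iff_exists_fun.mp (hn d hd)
  refine ⟨fun i => homogeneousComponent (n - 2) (c i),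
    fun i => homogeneousComponent_isHomogeneous _ _, ?_⟩
  have h1 : (monomial d (1 : ℂ)).IsHomogeneous n := by
    apply isHomogeneous_monomial
    rw [← hd, Finsupp.degree_eq_sum]
  have h2 : homogeneousComponent n (monomial d (1 : ℂ)) = monomial d (1 : ℂ) := by
    rw [homogeneousComponent_of_mem ((mem_homogeneousSubmodule _ _).mpr h1), if_pos rfl]
  rw [← h2, ← hc, map_sum]
  exact Finset.sum_congr rfl fun i _ => (hc_mul (qq_hom S i) hn2).symm

lemma eval_hom {n : ℕ} {h : MvPolynomial (Fin 4) ℂ} (hh : h.IsHomogeneous n) (v : Fin 4 → ℂ) :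
    eval v h = ∑ d : ((Finset.univ : Finset (Fin 4)).finsuppAntidiag n),
      coeff d.1 h * ∏ i, v i ^ d.1 i := by
  rw [eval_eq', Finset.sum_coe_sort ((Finset.univ : Finset (Fin 4)).finsuppAntidiag n)
    (fun d => coeff d h * ∏ i, v i ^ d i)]
  refine Finset.sum_subset ?_ ?_
  · intro d hd
    rw [Finset.mem_finsuppAntidiag]
    refine ⟨?_, Finset.subset_univ _⟩
    have := hh (mem_support_iff.mp hd)
    rw [← this, Finsupp.weight_apply, Finsupp.sum_fintype]
    · simp
    · simp
  · intro d _ hd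
    rw [notMem_support_iff.mp hd, zero_mul]

theorem finite_bad (hS : S.Smooth) (l : (Fin 4 → ℂ) →ₗ[ℂ] ℂ) :
    {t : ℂ | ¬ (S.pert l t).Smooth}.Finite := by
  classical
  obtain ⟨n, hn2, hn⟩ := exists_hom hS
  set D := (Finset.univ : Finset (Fin 4)).finsuppAntidiag n with hD
  have hD' : ∀ d : D, (∑ i, d.1 i) = n := fun d => (Finset.mem_finsuppAntidiag.mp d.2).1
  choose g hg hgs using fun d : D => hn d.1 (hD' d)
  set L : MvPolynomial (Fin 4) ℂ := ∑ a, C (l (Pi.single a 1)) * X a with hL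
  have hLv : ∀ v, eval v L = l v := by
    intro v
    have hv : v = ∑ a, v a • (Pi.single a 1 : Fin 4 → ℂ) := pi_eq_sum_univ' v
    conv_rhs => rw [hv]
    simp only [hL, map_sum, map_mul, eval_C, eval_X, map_smul, smul_eq_mul]
    exact Finset.sum_congr rfl fun a _ => mul_comm _ _
  have hLh : L.IsHomogeneous 1 := by
    refine IsHomogeneous.sum _ _ _ fun a _ => ?_
    have h1 := (isHomogeneous_C (Fin 4) (l (Pi.single a 1))).mul (isHomogeneous_X ℂ a)
    simpa using h1
  set K : Matrix D D ℂ := fun d d' => ∑ i, l (Pi.single i 1) * coeff d'.1 (g d i * L ^ 2) with hK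
  have hhom : ∀ d i, (g d i * L ^ 2).IsHomogeneous n := by
    intro d i
    have h1 := (hg d i).mul (hLh.pow 2)
    have h2 : n - 2 + 1 * 2 = n := by omega
    rwa [h2] at h1
  have hfin := (Module.End.finite_hasEigenvalue (Matrix.toLin' K)).image (fun z : ℂ => z⁻¹)
  refine hfin.subset ?_
  intro t ht
  change ¬ (S.pert l t).Smooth at ht
  rw [Tri.Smooth] at ht
  push Not at ht
  obtain ⟨v, hv, hv0⟩ := ht
  set M : D → ℂ := fun d => ∏ i, v i ^ d.1 i with hM
  have hM0 : M ≠ 0 := by
    obtain ⟨j, hj⟩ : ∃ j, v j ≠ 0 := by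
      by_contra hcon
      push Not at hcon
      exact hv0 (funext hcon)
    intro h
    have hjD : (Finsupp.single j n) ∈ D := by
      rw [hD, Finset.mem_finsuppAntidiag]
      refine ⟨?_, Finset.subset_univ _⟩
      simp
    have h1 := congrFun h ⟨Finsupp.single j n, hjD⟩
    simp only [hM, Pi.zero_apply] at h1
    rw [Finset.prod_eq_single j] at h1
    · rw [Finsupp.single_eq_same] at h1
      exact hj (pow_eq_zero_iff (by omega) |>.mp h1)
    · intro b _ hb
      rw [Finsupp.single_eq_of_ne hb, pow_zero]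
    · simp
  have hq : ∀ i, eval v (qq S i) = t * (l v * (l v * l (Pi.single i 1))) := by
    intro i
    rw [eval_qq]
    have := hv (Pi.single i 1)
    rw [Tri.pert_T] at this
    linear_combination this
  have hMK : M = t • K.mulVec M := by
    funext d
    have h1 : M d = eval v (monomial d.1 (1 : ℂ)) := by
      rw [eval_monomial, one_mul, Finsupp.prod_fintype]
      intro i
      rw [pow_zero]
    rw [h1, ← hgs d, map_sum]
    simp only [map_mul, hq, Pi.smul_apply, smul_eq_mul, Matrix.mulVec, dotProduct, hK]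
    rw [Finset.mul_sum]
    have h2 : ∀ i, eval v (g d i) * (l v * l v) =
        ∑ d' : D, coeff d'.1 (g d i * L ^ 2) * M d' := by
      intro i
      have h3 := eval_hom (hhom d i) v
      rw [map_mul, map_pow, hLv] at h3
      rw [← sq]
      exact h3
    calc ∑ i, eval v (g d i) * (t * (l v * (l v * l (Pi.single i 1))))
        = ∑ i, t * (l (Pi.single i 1) * (eval v (g d i) * (l v * l v))) :=
          Finset.sum_congr rfl fun i _ => by ring
      _ = ∑ i, ∑ d' : D, t * (l (Pi.single i 1) * (coeff d'.1 (g d i * L ^ 2) * M d')) := by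
          refine Finset.sum_congr rfl fun i _ => ?_
          rw [h2 i, Finset.mul_sum, Finset.mul_sum]
      _ = ∑ d' : D, ∑ i, t * (l (Pi.single i 1) * (coeff d'.1 (g d i * L ^ 2) * M d')) :=
          Finset.sum_comm
      _ = _ := by
          refine Finset.sum_congr rfl fun d' _ => ?_
          rw [Finset.sum_mul, Finset.mul_sum]
          exact Finset.sum_congr rfl fun i _ => by ring
  have ht0 : t ≠ 0 := by
    intro h
    apply hM0
    rw [hMK, h, zero_smul]
  refine ⟨t⁻¹, ?_, inv_inv t⟩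
  refine Module.End.hasEigenvalue_of_hasEigenvector (x := M) ⟨?_, hM0⟩
  rw [Module.End.mem_eigenspace_iff, Matrix.toLin'_apply]
  have : t⁻¹ • M = t⁻¹ • (t • K.mulVec M) := by rw [← hMK]
  rw [this, smul_smul, inv_mul_cancel₀ ht0, one_smul]

end Vale.Agent.P287.R2.H248
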