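import Mathlib

/-!
P287: definitions. `F` is a homogeneous polynomial of degree three in six variables over the
complex numbers, `X = {F = 0}` the cubic fourfold.
-/

namespace Vale.Agent.P287.R2.H248

open MvPolynomial

/-- The affine cone over projective five-space. -/
abbrev A6 : Type := Fin 6 → ℂ

/-- `F` defines a cubic fourfold (a smooth cubic hypersurface of five-space): the partial
derivatives have no common zero. -/
def IsCubicFourfold (F : MvPolynomial (Fin 6) ℂ) : Prop :=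
  F.IsHomogeneous 3 ∧ ∀ v : A6, (∀ i, eval v (pderiv i F) = 0) → v = 0

/-- `P` is (the cone over) a plane contained in `X`. -/
def IsPlaneIn (F : MvPolynomial (Fin 6) ℂ) (P : Submodule ℂ A6) : Prop :=
  Module.finrank ℂ P = 3 ∧ ∀ v ∈ P, eval v F = 0

/-- The tangent hyperplane of `X` at `p`. -/
def InTangent (F : MvPolynomial (Fin 6) ℂ) (p h : A6) : Prop :=
  ∑ i, eval p (pderiv i F) * h i = 0

/-- `p` is an Eckardt point: a point of `X` such that the intersection of `X` with its tangent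
hyperplane at `p` is a cone with vertex `p`. -/
def IsEckardt (F : MvPolynomial (Fin 6) ℂ) (p : A6) : Prop :=
  p ≠ 0 ∧ eval p F = 0 ∧ ∀ h, InTangent F p h → ∀ c : ℂ, eval (h + c • p) F = eval h F

/-- `X = {F = 0}` is birational to projective four-space: homogeneous polynomials `φ 0, …, φ 5` in
`t 0, …, t 4` of one degree and `ψ 0, …, ψ 4` in `x 0, …, x 5` of one degree with `F(φ) = 0`,
`ψ(φ(t)) = h(t) t` with `h ≠ 0`, and `φ(ψ(x)) = k(x) x` modulo `F`, with `k` not divisible by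
`F`. -/
def IsRational (F : MvPolynomial (Fin 6) ℂ) : Prop :=
  ∃ (a b : ℕ) (φ : Fin 6 → MvPolynomial (Fin 5) ℂ) (ψ : Fin 5 → MvPolynomial (Fin 6) ℂ)
    (h : MvPolynomial (Fin 5) ℂ) (k : MvPolynomial (Fin 6) ℂ),
    (∀ i, (φ i).IsHomogeneous a) ∧ (∀ j, (ψ j).IsHomogeneous b) ∧
    bind₁ φ F = 0 ∧
    h ≠ 0 ∧ (∀ j, bind₁ φ (ψ j) = h * X j) ∧
    ¬ F ∣ k ∧ ∀ i, F ∣ bind₁ ψ (φ i) - k * X i

end Vale.Agent.P287.R2.H248
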