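import Vale.Agent.P287.R2.H248.Lattice

/-!
P287: the hypotheses and the conclusion of the main theorem, `X = {F = 0}`.
-/

namespace Vale.Agent.P287.R2.H248

open Module MvPolynomial

/-- `X` contains two disjoint planes. -/
def HasDisjointPlanes (F : MvPolynomial (Fin 6) ℂ) : Prop :=
  ∃ P Q, IsPlaneIn F P ∧ IsPlaneIn F Q ∧ Disjoint P Q

/-- Two planes meet in a line. -/
def MeetInLine (P Q : Submodule ℂ A6) : Prop := finrank ℂ ↥(P ⊓ Q) = 2

/-- (1) `X` has an Eckardt point and contains a plane not through it. -/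
def Case1 (F : MvPolynomial (Fin 6) ℂ) : Prop :=
  ∃ p P, IsEckardt F p ∧ IsPlaneIn F P ∧ p ∉ P

/-- (2) `X` has two Eckardt points. -/
def Case2 (F : MvPolynomial (Fin 6) ℂ) : Prop :=
  ∃ p q, IsEckardt F p ∧ IsEckardt F q ∧ ∀ c : ℂ, q ≠ c • p

/-- (3) `X` contains three planes which span five-space, two of them meeting in a line. -/
def Case3 (F : MvPolynomial (Fin 6) ℂ) : Prop :=
  ∃ P Q R, IsPlaneIn F P ∧ IsPlaneIn F Q ∧ IsPlaneIn F R ∧ MeetInLine P Q ∧ P ⊔ Q ⊔ R = ⊤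

/-- (4) `X` contains at least 28 planes; or at least 21 planes, no two of them meeting in a
line. -/
def Case4 (F : MvPolynomial (Fin 6) ℂ) : Prop :=
  ∃ s : Finset (Submodule ℂ A6), (∀ P ∈ s, IsPlaneIn F P) ∧
    (28 ≤ s.card ∨ 21 ≤ s.card ∧ ∀ P ∈ s, ∀ Q ∈ s, P ≠ Q → ¬ MeetInLine P Q)

/-- (5) `C ^ 6 = A + B` is a direct sum of two subspaces of dimension at least two, and
`F (a + b) = F a + F b`. -/
def Case5 (F : MvPolynomial (Fin 6) ℂ) : Prop :=
  ∃ A B : Submodule ℂ A6, IsCompl A B ∧ 2 ≤ finrank ℂ A ∧ 2 ≤ finrank ℂ B ∧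
    ∀ a ∈ A, ∀ b ∈ B, eval (a + b) F = eval a F + eval b F

/-- (6) Some integral combination of `h ^ 2` and planes of `X` has discriminant not divisible
by four. -/
def Case6 (F : MvPolynomial (Fin 6) ℂ) : Prop :=
  ∃ s n a, (∀ P ∈ s, IsPlaneIn F P) ∧ ¬ 4 ∣ disc s n a

end Vale.Agent.P287.R2.H248
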