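import Vale.Agent.P287.R2.H248.Surface

/-!
P287: a line on a smooth cubic surface over the complex numbers has a disjoint line.
-/

namespace Vale.Agent.P287.R2.H248

open Module Submodule

variable {V : Type*} [AddCommGroup V] [Module ℂ V] {S : Tri V}

namespace Tri

lemma finrank_span_pair' [FiniteDimensional ℂ V] {u v : V} (hu : u ≠ 0)
    (hv : v ∉ span ℂ {u}) : finrank ℂ ↥(span ℂ {u, v}) = 2 := by
  have h2 : span ℂ {u, v} = span ℂ {u} ⊔ span ℂ {v} := by
    rw [← span_union, Set.singleton_union]
  rw [h2, finrank_sup_single hv, finrank_span_singleton hu]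

/-- **A degenerate plane contains a second line.** -/
theorem exists_line [FiniteDimensional ℂ V] (hS : S.Smooth) (hV : finrank ℂ V = 4)
    {U : Submodule ℂ V} (hU : finrank ℂ U = 2) (hI : S.Iso U) {p : V} (hp : p ∉ U)
    (hdeg : S.Deg U p) :
    ∃ L : Submodule ℂ V, finrank ℂ L = 2 ∧ S.Iso L ∧ L ≤ U ⊔ span ℂ {p} ∧ ¬ L ≤ U := by
  obtain ⟨u, huU, t, hne, hD, hF⟩ := hdeg
  have hpm : p ∈ U ⊔ span ℂ {p} := mem_sup_right (mem_span_singleton_self p)
  by_cases ht : t = 0
  · subst ht
    have hu0 : u ≠ 0 := by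
      rcases hne with h | h
      · exact h
      · exact absurd rfl h
    obtain ⟨f, hfU, hfu, hspan⟩ := exists_pair hU huU hu0
    have hD1 : ∀ v ∈ U, S.T u v p = 0 := by
      intro v hv
      linear_combination (1 / 2 : ℂ) * hD v hv
    have hpp : S.T u p p = 0 := by linear_combination (1 / 3 : ℂ) * hF
    obtain ⟨y, hy⟩ : ∃ y : ℂ, 3 * y ^ 2 * S.T f f p + 3 * y * S.T f p p + S.T p p p = 0 := by
      by_cases hC : S.T f f p = 0
      · by_cases hE : S.T f p p = 0
        · exfalso
          obtain ⟨e, he⟩ : ∃ e, e ∉ U ⊔ span ℂ {p} := by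
            apply exists_not_mem
            rw [finrank_sup_single hp, hU, hV]
            norm_num
          obtain ⟨s, r, hsr, hquad⟩ := quad_zero (S.T u u e) (S.T u f e) (S.T f f e)
          have hsrU : s • u + r • f ∈ U := U.add_mem (U.smul_mem s huU) (U.smul_mem r hfU)
          have hv : s • u + r • f = 0 := by
            apply eq_zero_of_smooth hS hV hU hp he
            · intro w hw
              exact hI.two hsrU hw
            · rw [S.sq_add, hD1 u huU, hD1 f hfU, hC]
              ring
            · rw [S.sq_add]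
              exact hquad
          obtain ⟨a1, a2⟩ := pair_eq_zero hu0 hfu hv
          rcases hsr with h | h
          · exact h a1
          · exact h a2
        · refine ⟨-(S.T p p p) / (3 * S.T f p p), ?_⟩
          rw [hC]
          field_simp
          ring
      · obtain ⟨z, hz⟩ := IsAlgClosed.exists_pow_nat_eq
          ((3 * S.T f p p) ^ 2 - 4 * (3 * S.T f f p) * S.T p p p) (n := 2) (by norm_num)
        refine ⟨(-(3 * S.T f p p) + z) / (2 * (3 * S.T f f p)), ?_⟩
        field_simp
        linear_combination hz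
    set v := y • f + (1 : ℂ) • p with hv
    have hvU : v ∉ U := by
      intro h
      apply hp
      have := U.sub_mem h (U.smul_mem y hfU)
      rwa [hv, add_sub_cancel_left, one_smul] at this
    have hvu : v ∉ span ℂ {u} := by
      intro h
      exact hvU ((span_le.mpr (Set.singleton_subset_iff.mpr huU)) h)
    have hvm : v ∈ U ⊔ span ℂ {p} :=
      (U ⊔ span ℂ {p}).add_mem (mem_sup_left (U.smul_mem _ hfU))
        ((U ⊔ span ℂ {p}).smul_mem _ hpm)
    refine ⟨span ℂ {u, v}, finrank_span_pair' hu0 hvu, ?_, ?_, ?_⟩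
    · apply iso_span_pair
      · exact hI u huU
      · rw [hv]
        simp only [map_add, map_smul, smul_eq_mul]
        rw [hI.two huU hfU, hD1 u huU]
        ring
      · rw [S.cyc, hv, S.sq_add, S.s23 f p u, ← S.cyc u f f, ← S.cyc u p p,
          S.s12 f u p, hD1 f hfU, hpp, hI.three huU hfU hfU]
        ring
      · rw [hv, S.cube_add, hI f hfU]
        linear_combination hy
    · rw [span_le]
      rintro x (rfl | rfl)
      · exact mem_sup_left huU
      · exact hvm
    · intro h
      exact hvU (h (subset_span (Set.mem_insert_of_mem _ rfl)))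
  · have hti : t * t⁻¹ = 1 := mul_inv_cancel₀ ht
    set q := p + t⁻¹ • u with hq
    have hqU : q ∉ U := by
      intro h
      apply hp
      have := U.sub_mem h (U.smul_mem t⁻¹ huU)
      rwa [hq, add_sub_cancel_right] at this
    have hqm : q ∈ U ⊔ span ℂ {p} :=
      (U ⊔ span ℂ {p}).add_mem hpm (mem_sup_left (U.smul_mem _ huU))
    have hD' : ∀ v ∈ U, S.T v q q = 0 := by
      intro v hv
      have h0 : S.T v u u = 0 := hI.three hv huU huU
      rw [hq]
      simp only [map_add, map_smul, LinearMap.add_apply, LinearMap.smul_apply, smul_eq_mul, h0]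
      rw [S.s23 v p u]
      have := hD v hv
      rw [S.s12 u v p] at this
      linear_combination t⁻¹ * this - S.T v p p * hti
    have hF' : S.T q q q = 0 := by
      have h1 := S.cube_add 1 t⁻¹ p u
      rw [one_smul] at h1
      rw [hq, h1, hI u huU, ← S.cyc u p p, S.cyc p u u]
      have h2 := hD u huU
      linear_combination (t⁻¹ / 2) * hF + (3 / 2) * t⁻¹ ^ 2 * h2
        - (S.T p p p + (3 / 2) * t⁻¹ * S.T u p p) * hti
    obtain ⟨e1, he1U, he10⟩ : ∃ e1 ∈ U, e1 ≠ 0 := by
      have : U ≠ ⊥ := by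
        rintro rfl
        rw [finrank_bot] at hU
        omega
      exact U.ne_bot_iff.mp this
    obtain ⟨e2, he2U, he21, hspan⟩ := exists_pair hU he1U he10
    obtain ⟨s, r, hsr, hquad⟩ := quad_zero (S.T e1 e1 q) (S.T e1 e2 q) (S.T e2 e2 q)
    set v := s • e1 + r • e2 with hv
    have hvU : v ∈ U := U.add_mem (U.smul_mem s he1U) (U.smul_mem r he2U)
    have hv0 : v ≠ 0 := by
      intro h0
      obtain ⟨a1, a2⟩ := pair_eq_zero he10 he21 h0
      rcases hsr with h | h
      · exact h a1
      · exact h a2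
    have hqv : q ∉ span ℂ {v} := fun h =>
      hqU ((span_le.mpr (Set.singleton_subset_iff.mpr hvU)) h)
    refine ⟨span ℂ {v, q}, finrank_span_pair' hv0 hqv, ?_, ?_, ?_⟩
    · apply iso_span_pair
      · exact hI v hvU
      · rw [hv, S.sq_add]
        exact hquad
      · exact hD' v hvU
      · exact hF'
    · rw [span_le]
      rintro x (rfl | rfl)
      · exact mem_sup_left hvU
      · exact hqm
    · intro h
      exact hqU (h (subset_span (Set.mem_insert_of_mem _ rfl)))

/-- **A line on a smooth cubic surface has a disjoint line.** -/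
theorem exists_disjoint [FiniteDimensional ℂ V] (hS : S.Smooth) (hV : finrank ℂ V = 4)
    {m : Submodule ℂ V} (hm : finrank ℂ m = 2) (hI : S.Iso m) :
    ∃ L : Submodule ℂ V, finrank ℂ L = 2 ∧ S.Iso L ∧ Disjoint m L := by
  obtain ⟨q0, hq0⟩ : ∃ q, q ∉ m := by
    apply exists_not_mem
    rw [hm, hV]
    norm_num
  obtain ⟨p, hp, hdeg⟩ := exists_deg hS hV hm hI hq0
  have hpm : p ∉ m := fun h => hp (mem_sup_left h)
  obtain ⟨l, hl, hIl, hlp, hlm⟩ := exists_line hS hV hm hI hpm hdeg
  have hml : ¬ m ≤ l := by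
    intro h
    have := Submodule.eq_of_le_of_finrank_eq h (by rw [hm, hl])
    exact hlm this.symm.le
  obtain ⟨q1, hq1m, hq1l⟩ := Set.not_subset.mp hml
  obtain ⟨p', hp', hdeg'⟩ := exists_deg hS hV hl hIl hq1l
  have hpl' : p' ∉ l := fun h => hp' (mem_sup_left h)
  obtain ⟨L, hL, hIL, hLp, hLl⟩ := exists_line hS hV hl hIl hpl' hdeg'
  -- the plane spanned by `m` and `l`
  have hpl : m ⊔ l = l ⊔ span ℂ {q1} := by
    symm
    apply Submodule.eq_of_le_of_finrank_le
    · refine sup_le le_sup_right (span_le.mpr (Set.singleton_subset_iff.mpr ?_))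
      exact mem_sup_left hq1m
    · have h1 : m ⊔ l ≤ m ⊔ span ℂ {p} := sup_le le_sup_left hlp
      have h2 := Submodule.finrank_mono h1
      rw [finrank_sup_single hpm, hm] at h2
      rw [finrank_sup_single hq1l, hl]
      exact h2
  have key : ∀ v, v ∈ m ⊔ l → v ∈ L → v ∈ l := by
    intro v hv hvL
    obtain ⟨a, ha, z, hz, hazv⟩ := mem_sup.mp (hLp hvL)
    obtain ⟨c, rfl⟩ := mem_span_singleton.mp hz
    by_cases hc : c = 0
    · rw [← hazv, hc, zero_smul, add_zero]
      exact ha
    · exfalso
      apply hp'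
      rw [← hpl]
      have h1 : c • p' ∈ m ⊔ l := by
        have : c • p' = v - a := by rw [← hazv]; abel
        rw [this]
        exact (m ⊔ l).sub_mem hv (mem_sup_right ha)
      exact ((m ⊔ l).smul_mem_iff hc).mp h1
  refine ⟨L, hL, hIL, ?_⟩
  rw [disjoint_iff, Submodule.eq_bot_iff]
  rintro v ⟨hvm, hvL⟩
  have hvl : v ∈ l := key v (mem_sup_left hvm) hvL
  obtain ⟨x, hxL, hxl⟩ := Set.not_subset.mp hLl
  have hx : x ∉ l ⊔ span ℂ {q1} := by
    rw [← hpl]
    intro h
    exact hxl (key x h hxL)
  exact eq_zero_of_smooth hS hV hl hq1l hx (fun w hw => hIl.two hvl hw) (hI.two hvm hq1m)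
    (hIL.two hvL hxL)

end Tri

end Vale.Agent.P287.R2.H248
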