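import Vale.Agent.P287.R2.H248.Disjoint

/-!
P287: a smooth cubic fourfold with an Eckardt point and a plane not through it contains two
disjoint planes.
-/

namespace Vale.Agent.P287.R2.H248

open Module Submodule

variable {V : Type*} [AddCommGroup V] [Module ℂ V] {S : Tri V}

namespace Tri

/-- The restriction of the form along a linear map. -/
def comap {W : Type*} [AddCommGroup W] [Module ℂ W] (S : Tri V) (f : W →ₗ[ℂ] V) : Tri W where
  T :=
    { toFun := fun u => (S.T (f u)).compl₁₂ f f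
      map_add' := by
        intro u v
        ext x y
        simp
      map_smul' := by
        intro c u
        ext x y
        simp }
  s12 := fun u v w => S.s12 (f u) (f v) (f w)
  s23 := fun u v w => S.s23 (f u) (f v) (f w)

lemma comap_T {W : Type*} [AddCommGroup W] [Module ℂ W] (f : W →ₗ[ℂ] V) (u v w : W) :
    (S.comap f).T u v w = S.T (f u) (f v) (f w) := rfl

/-- `p` is an Eckardt point: on the tangent space at `p` the cubic does not depend on the direction
`p`. -/
def Eckardt (S : Tri V) (p : V) : Prop :=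
  p ≠ 0 ∧ S.T p p p = 0 ∧ ∀ h k, S.T p p h = 0 → S.T p p k = 0 → S.T p h k = 0

/-- The base surface of the tangent cone at an Eckardt point is smooth. -/
lemma base_smooth (hS : S.Smooth) {p : V} (hE : S.Eckardt p) {W : Submodule ℂ V}
    (hWp : W ⊔ span ℂ {p} = LinearMap.ker (S.T p p)) (hd : Disjoint W (span ℂ {p})) :
    (S.comap W.subtype).Smooth := by
  obtain ⟨hp0, hpp, hcone⟩ := hE
  have hWH : ∀ w ∈ W, S.T p p w = 0 := by
    intro w hw
    have : w ∈ LinearMap.ker (S.T p p) := by
      rw [← hWp]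
      exact mem_sup_left hw
    exact this
  rintro ⟨w, hw⟩ hvan
  have hww : ∀ h, S.T p p h = 0 → S.T w w h = 0 := by
    intro h hh
    have h1 : h ∈ W ⊔ span ℂ {p} := by
      rw [hWp]
      exact hh
    obtain ⟨a, ha, z, hz, rfl⟩ := mem_sup.mp h1
    obtain ⟨c, rfl⟩ := mem_span_singleton.mp hz
    have h2 : S.T w w a = 0 := hvan ⟨a, ha⟩
    rw [map_add, map_smul, h2, S.cyc, S.cyc, hcone w w (hWH w hw) (hWH w hw)]
    simp
  obtain ⟨g, hg⟩ : ∃ g, S.T p p g ≠ 0 := by
    by_contra hcon
    push Not at hcon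
    exact hp0 (hS p hcon)
  obtain ⟨c, hc⟩ : ∃ c : ℂ, c ^ 2 * S.T p p g + 2 * c * S.T w p g + S.T w w g = 0 := by
    obtain ⟨z, hz⟩ := IsAlgClosed.exists_pow_nat_eq
      ((S.T w p g) ^ 2 - S.T p p g * S.T w w g) (n := 2) (by norm_num)
    refine ⟨(-(S.T w p g) + z) / S.T p p g, ?_⟩
    field_simp
    linear_combination hz
  have hsing : (1 : ℂ) • w + c • p = 0 := by
    apply hS
    intro x
    -- `x` is a multiple of `g` up to the tangent space
    have hx : S.T p p (x - (S.T p p x / S.T p p g) • g) = 0 := by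
      rw [map_sub, map_smul, smul_eq_mul, div_mul_cancel₀ _ hg, sub_self]
    have h1 : S.T ((1 : ℂ) • w + c • p) ((1 : ℂ) • w + c • p)
        (x - (S.T p p x / S.T p p g) • g) = 0 := by
      rw [S.sq_add, hww _ hx, hx, S.s12 w p, hcone w _ (hWH w hw) hx]
      ring
    have h2 : S.T ((1 : ℂ) • w + c • p) ((1 : ℂ) • w + c • p) g = 0 := by
      rw [S.sq_add]
      linear_combination hc
    rw [map_sub, map_smul, h2, smul_zero, sub_zero] at h1
    exact h1
  have hw0 : w = 0 := by
    have h1 : w ∈ span ℂ {p} := by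
      rw [mem_span_singleton]
      refine ⟨-c, ?_⟩
      rw [one_smul] at hsing
      rw [neg_smul]
      exact (eq_neg_of_add_eq_zero_left hsing).symm
    exact (Submodule.disjoint_def.mp hd) w hw h1
  exact Subtype.ext hw0

/-- A smooth cubic surface contains no plane. -/
lemma no_plane [FiniteDimensional ℂ V] (hS : S.Smooth) (hV : finrank ℂ V = 4)
    {P : Submodule ℂ V} (hP : finrank ℂ P = 3) (hI : S.Iso P) : False := by
  obtain ⟨g, hg⟩ : ∃ g, g ∉ P := by
    apply exists_not_mem
    rw [hP, hV]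
    norm_num
  obtain ⟨a, haP, ha0⟩ : ∃ a ∈ P, a ≠ 0 := by
    have : P ≠ ⊥ := by
      rintro rfl
      rw [finrank_bot] at hP
      omega
    exact P.ne_bot_iff.mp this
  obtain ⟨b, hbP, hba⟩ : ∃ b ∈ P, b ∉ span ℂ {a} := by
    have h1 : ¬ P ≤ span ℂ {a} := by
      intro h
      have := Submodule.finrank_mono h
      rw [hP, finrank_span_singleton ha0] at this
      omega
    obtain ⟨b, hb, hb2⟩ := Set.not_subset.mp h1
    exact ⟨b, hb, hb2⟩
  obtain ⟨s, r, hsr, hquad⟩ := quad_zero (S.T a a g) (S.T a b g) (S.T b b g)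
  have hv : s • a + r • b ∈ P := P.add_mem (P.smul_mem s haP) (P.smul_mem r hbP)
  have htop : P ⊔ span ℂ {g} = ⊤ := by
    apply Submodule.eq_top_of_finrank_eq
    rw [finrank_sup_single hg, hP, hV]
  have h0 : s • a + r • b = 0 := by
    apply hS
    intro w
    have hw : w ∈ P ⊔ span ℂ {g} := by rw [htop]; trivial
    obtain ⟨x, hx, z, hz, rfl⟩ := mem_sup.mp hw
    obtain ⟨c, rfl⟩ := mem_span_singleton.mp hz
    rw [map_add, map_smul, hI.two hv hx, S.sq_add, hquad, smul_zero, add_zero]
  obtain ⟨a1, a2⟩ := pair_eq_zero ha0 hba h0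
  rcases hsr with h | h
  · exact h a1
  · exact h a2

/-- **Eckardt point and a plane not through it: two disjoint planes.** -/
theorem exists_disjoint_plane [FiniteDimensional ℂ V] (hS : S.Smooth) (hV : finrank ℂ V = 6)
    {p : V} (hE : S.Eckardt p) {P : Submodule ℂ V} (hP : finrank ℂ P = 3) (hI : S.Iso P)
    (hpP : p ∉ P) :
    ∃ Q : Submodule ℂ V, finrank ℂ Q = 3 ∧ S.Iso Q ∧ p ∈ Q ∧ Disjoint P Q := by
  have hE' := hE
  obtain ⟨hp0, hpp, hcone⟩ := hE'
  set H := LinearMap.ker (S.T p p) with hH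
  have hpH : p ∈ H := hpp
  have hH5 : finrank ℂ H = 5 := by
    have h0 : S.T p p ≠ 0 := by
      intro h0
      apply hp0
      apply hS
      intro w
      rw [h0]
      rfl
    have h1 : finrank ℂ ↥H + 1 = finrank ℂ V :=
      Module.Dual.finrank_ker_add_one_of_ne_zero (f := S.T p p) h0
    omega
  have hd0 : Disjoint (P ⊓ H) (span ℂ {p}) := by
    rw [Submodule.disjoint_def]
    rintro x ⟨hx, -⟩ hx2
    obtain ⟨c, rfl⟩ := mem_span_singleton.mp hx2
    by_cases hc : c = 0
    · rw [hc, zero_smul]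
    · exact absurd ((P.smul_mem_iff hc).mp hx) hpP
  obtain ⟨C, hPC, hC⟩ := hd0.exists_isCompl
  set W := C ⊓ H with hW
  have hsp : span ℂ {p} ≤ H := span_le.mpr (Set.singleton_subset_iff.mpr hpH)
  have hWp : W ⊔ span ℂ {p} = H := by
    rw [hW, sup_comm, ← sup_inf_assoc_of_le _ hsp, sup_comm, hC.sup_eq_top, top_inf_eq]
  have hWd : Disjoint W (span ℂ {p}) := hC.disjoint.mono_left inf_le_left
  have hW4 : finrank ℂ W = 4 := by
    have h1 := Submodule.finrank_sup_add_finrank_inf_eq W (span ℂ {p})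
    rw [hWp, hWd.eq_bot, finrank_bot, finrank_span_singleton hp0, hH5] at h1
    omega
  have hsm : (S.comap W.subtype).Smooth := base_smooth hS hE hWp hWd
  have hmW : P ⊓ H ≤ W := le_inf hPC inf_le_right
  -- the line
  have hm2 : finrank ℂ ↥(P ⊓ H) = 2 := by
    have h1 := Submodule.finrank_sup_add_finrank_inf_eq P H
    have h2 := Submodule.finrank_le (P ⊔ H)
    rw [hV] at h2
    rw [hP, hH5] at h1
    have h3 : finrank ℂ ↥(P ⊓ H) ≠ 3 := by
      intro h3
      have h4 : P ⊓ H = P := Submodule.eq_of_le_of_finrank_eq inf_le_left (by rw [h3, hP])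
      have h5 : P ≤ W := h4 ▸ hmW
      have h6 : finrank ℂ ↥(P.comap W.subtype) = 3 := by
        rw [← hP]
        exact (Submodule.comapSubtypeEquivOfLe h5).finrank_eq
      exact no_plane hsm hW4 h6 (fun u hu => hI _ hu)
    have h4 := Submodule.finrank_mono (inf_le_left : P ⊓ H ≤ P)
    rw [hP] at h4
    omega
  have hm2' : finrank ℂ ↥((P ⊓ H).comap W.subtype) = 2 := by
    rw [← hm2]
    exact (Submodule.comapSubtypeEquivOfLe hmW).finrank_eq
  obtain ⟨L, hL2, hLI, hLd⟩ := exists_disjoint hsm hW4 hm2' (fun u hu => hI _ hu.1)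
  set L' := L.map W.subtype with hL'
  have hL'2 : finrank ℂ L' = 2 := by
    rw [hL', ← hL2]
    exact (LinearEquiv.finrank_eq (L.equivMapOfInjective W.subtype
      (Submodule.injective_subtype W))).symm
  have hL'W : L' ≤ W := Submodule.map_subtype_le W L
  have hpL' : p ∉ L' := by
    intro h
    exact hp0 ((Submodule.disjoint_def.mp hWd) p (hL'W h) (mem_span_singleton_self p))
  refine ⟨L' ⊔ span ℂ {p}, ?_, ?_, mem_sup_right (mem_span_singleton_self p), ?_⟩
  · rw [finrank_sup_single hpL', hL'2]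
  · intro u hu
    obtain ⟨a, ha, z, hz, rfl⟩ := mem_sup.mp hu
    obtain ⟨c, rfl⟩ := mem_span_singleton.mp hz
    have haH : S.T p p a = 0 := (hL'W ha).2
    have haa : S.T a a a = 0 := by
      obtain ⟨x, hx, rfl⟩ := Submodule.mem_map.mp ha
      exact hLI x hx
    have h1 := S.cube_add 1 c a p
    rw [one_smul] at h1
    rw [h1, haa, hpp, S.s13 a p p, haH, ← S.cyc p a a, hcone a a haH haH]
    ring
  · rw [Submodule.disjoint_def]
    intro x hxP hxQ
    obtain ⟨a, ha, z, hz, hxaz⟩ := mem_sup.mp hxQ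
    have haW : a ∈ W := hL'W ha
    have hxH : x ∈ H := by
      rw [← hxaz]
      exact H.add_mem haW.2 (hsp hz)
    have hxW : x ∈ W := hmW ⟨hxP, hxH⟩
    have hz0 : z = 0 := by
      apply (Submodule.disjoint_def.mp hWd) z _ hz
      have : z = x - a := by rw [← hxaz]; abel
      rw [this]
      exact W.sub_mem hxW haW
    rw [hz0, add_zero] at hxaz
    subst hxaz
    obtain ⟨y, hy, hya⟩ := Submodule.mem_map.mp ha
    have h1 : y ∈ (P ⊓ H).comap W.subtype := by
      rw [Submodule.mem_comap, hya]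
      exact ⟨hxP, hxH⟩
    have h2 := (Submodule.disjoint_def.mp hLd) y h1 hy
    rw [← hya, h2, map_zero]

end Tri

end Vale.Agent.P287.R2.H248
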