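import Vale.Agent.P287.R2.H248.Line
import Vale.Agent.P287.R2.H414.Maps

/-!
P287: Eckardt points and disjoint planes, in the vocabulary of cubic fourfolds.
-/

namespace Vale.Agent.P287.R2.H248

open Module Submodule

/-- A plane off an Eckardt point is disjoint from some plane through the point. -/
theorem eckardt_plane_pt {F : MvPolynomial (Fin 6) ℂ} (hF : IsCubicFourfold F) {p : A6}
    (hp : IsEckardt F p) {P : Submodule ℂ A6} (hP : IsPlaneIn F P) (hpP : p ∉ P) :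
    ∃ Q, IsPlaneIn F Q ∧ p ∈ Q ∧ Disjoint P Q := by
  have hV : finrank ℂ A6 = 6 := by simp
  obtain ⟨Q, hQ3, hQI, hpQ, hd⟩ := Tri.exists_disjoint_plane (pol_smooth hF) hV
    (pol_eckardt hF.1 hp) hP.1 ((pol_iso hF.1).mpr hP.2) hpP
  exact ⟨Q, ⟨hQ3, (pol_iso hF.1).mp hQI⟩, hpQ, hd⟩

/-- With an Eckardt point: two disjoint planes if and only if a plane off the point. -/
theorem eckardt_iff {F : MvPolynomial (Fin 6) ℂ} (hF : IsCubicFourfold F) {p : A6}
    (hp : IsEckardt F p) :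
    (∃ P Q, IsPlaneIn F P ∧ IsPlaneIn F Q ∧ Disjoint P Q) ↔ ∃ P, IsPlaneIn F P ∧ p ∉ P := by
  constructor
  · rintro ⟨P, Q, hP, hQ, hd⟩
    by_cases h : p ∈ P
    · refine ⟨Q, hQ, fun hq => hp.1 ?_⟩
      exact Submodule.disjoint_def.mp hd p h hq
    · exact ⟨P, hP, h⟩
  · rintro ⟨P, hP, hpP⟩
    obtain ⟨Q, hQ, -, hd⟩ := eckardt_plane_pt hF hp hP hpP
    exact ⟨P, Q, hP, hQ, hd⟩

/-- Two disjoint planes: rational. -/
theorem rational_of_disjoint {F : MvPolynomial (Fin 6) ℂ} (hF : IsCubicFourfold F)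
    (h : ∃ P Q, IsPlaneIn F P ∧ IsPlaneIn F Q ∧ Disjoint P Q) : IsRational F := by
  obtain ⟨P, Q, hP, hQ, hd⟩ := h
  exact H414.rational_of_planes (pol_smooth hF) hP.1 hQ.1 ((pol_iso hF.1).mpr hP.2)
    ((pol_iso hF.1).mpr hQ.2) hd (fun v => (pol_three hF.1 v).symm)

end Vale.Agent.P287.R2.H248
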