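import Vale.Agent.P287.R2.H248.Defs

/-!
P287: the lattice spanned by the planes of a cubic fourfold and the square of the hyperplane class.
-/

namespace Vale.Agent.P287.R2.H248

open Module

open Classical in
/-- The intersection number of two planes of a cubic fourfold: `3` if they are equal, `-1` if they
meet in a line, `1` if they meet in a point, `0` if they are disjoint. -/
noncomputable def inter (P Q : Submodule ℂ A6) : ℤ :=
  if P = Q then 3 else if finrank ℂ ↥(P ⊓ Q) = 2 then -1 else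
    if finrank ℂ ↥(P ⊓ Q) = 1 then 1 else 0

/-- The discriminant `3 (v . v) - (h ^ 2 . v) ^ 2` of the pair of classes `h ^ 2` and
`v = n h ^ 2 + ∑ a(P) P`, with `h ^ 2 . h ^ 2 = 3` and `h ^ 2 . P = 1`. -/
noncomputable def disc (s : Finset (Submodule ℂ A6)) (n : ℤ) (a : Submodule ℂ A6 → ℤ) : ℤ :=
  3 * (3 * n ^ 2 + 2 * n * ∑ P ∈ s, a P + ∑ P ∈ s, ∑ Q ∈ s, a P * a Q * inter P Q) -
    (3 * n + ∑ P ∈ s, a P) ^ 2

lemma inter_comm (P Q : Submodule ℂ A6) : inter P Q = inter Q P := by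
  classical
  rw [inter, inter, inf_comm P Q]
  simp only [eq_comm (a := P) (b := Q)]

lemma inter_self (P : Submodule ℂ A6) : inter P P = 3 := by
  classical
  rw [inter, if_pos rfl]

lemma inter_even {F : MvPolynomial (Fin 6) ℂ}
    (h : ∀ P Q, IsPlaneIn F P → IsPlaneIn F Q → ¬ Disjoint P Q) {P Q : Submodule ℂ A6}
    (hP : IsPlaneIn F P) (hQ : IsPlaneIn F Q) : (2 : ℤ) ∣ 3 * inter P Q - 1 := by
  classical
  rw [inter]
  split_ifs with h1 h2 h3
  · norm_num
  · norm_num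
  · norm_num
  · exfalso
    apply h P Q hP hQ
    rw [disjoint_iff, ← Submodule.finrank_eq_zero (R := ℂ)]
    have h4 : finrank ℂ ↥(P ⊓ Q) ≤ 3 := hP.1 ▸ Submodule.finrank_mono inf_le_left
    have h5 : finrank ℂ ↥(P ⊓ Q) ≠ 3 := by
      intro h5
      apply h1
      have h6 : P ⊓ Q = P := Submodule.eq_of_le_of_finrank_eq inf_le_left (by rw [h5, hP.1])
      have h7 : P ⊓ Q = Q := Submodule.eq_of_le_of_finrank_eq inf_le_right (by rw [h5, hQ.1])
      rw [← h6, h7]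
    omega

lemma sum_four {F : MvPolynomial (Fin 6) ℂ}
    (h : ∀ P Q, IsPlaneIn F P → IsPlaneIn F Q → ¬ Disjoint P Q)
    (a : Submodule ℂ A6 → ℤ) (s : Finset (Submodule ℂ A6)) (hs : ∀ P ∈ s, IsPlaneIn F P) :
    (4 : ℤ) ∣ ∑ P ∈ s, ∑ Q ∈ s, a P * a Q * (3 * inter P Q - 1) := by
  classical
  induction s using Finset.induction_on with
  | empty => simp
  | insert P s hP ih =>
    have ih' := ih fun Q hQ => hs Q (Finset.mem_insert_of_mem hQ)
    have hP' := hs P (Finset.mem_insert_self _ _)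
    have e1 : ∑ Q ∈ insert P s, ∑ R ∈ insert P s, a Q * a R * (3 * inter Q R - 1) =
        a P * a P * 8 + 2 * ∑ Q ∈ s, a P * a Q * (3 * inter P Q - 1) +
          ∑ Q ∈ s, ∑ R ∈ s, a Q * a R * (3 * inter Q R - 1) := by
      rw [Finset.sum_insert hP, Finset.sum_insert hP, inter_self]
      have e2 : ∀ Q ∈ s, ∑ R ∈ insert P s, a Q * a R * (3 * inter Q R - 1) =
          a P * a Q * (3 * inter P Q - 1) + ∑ R ∈ s, a Q * a R * (3 * inter Q R - 1) := by
        intro Q _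
        rw [Finset.sum_insert hP, inter_comm Q P]
        ring
      rw [Finset.sum_congr rfl e2, Finset.sum_add_distrib]
      ring
    rw [e1]
    have h2 : (2 : ℤ) ∣ ∑ Q ∈ s, a P * a Q * (3 * inter P Q - 1) :=
      Finset.dvd_sum fun Q hQ =>
        (inter_even h hP' (hs Q (Finset.mem_insert_of_mem hQ))).mul_left _
    obtain ⟨c, hc⟩ := h2
    obtain ⟨d, hd⟩ := ih'
    rw [hc, hd]
    exact ⟨a P * a P * 2 + c + d, by ring⟩

lemma disc_eq (s : Finset (Submodule ℂ A6)) (n : ℤ) (a : Submodule ℂ A6 → ℤ) :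
    disc s n a = ∑ P ∈ s, ∑ Q ∈ s, a P * a Q * (3 * inter P Q - 1) := by
  have e1 : (∑ P ∈ s, a P) ^ 2 = ∑ P ∈ s, ∑ Q ∈ s, a P * a Q := by
    rw [sq, Finset.sum_mul_sum]
  have e2 : ∑ P ∈ s, ∑ Q ∈ s, a P * a Q * (3 * inter P Q - 1) =
      3 * ∑ P ∈ s, ∑ Q ∈ s, a P * a Q * inter P Q - ∑ P ∈ s, ∑ Q ∈ s, a P * a Q := by
    rw [Finset.mul_sum, ← Finset.sum_sub_distrib]
    refine Finset.sum_congr rfl fun P _ => ?_
    rw [Finset.mul_sum, ← Finset.sum_sub_distrib]
    exact Finset.sum_congr rfl fun Q _ => by ring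
  rw [e2, disc, ← e1]
  ring

/-- Without disjoint planes every discriminant is divisible by four. -/
theorem four_dvd_disc {F : MvPolynomial (Fin 6) ℂ}
    (h : ¬ ∃ P Q, IsPlaneIn F P ∧ IsPlaneIn F Q ∧ Disjoint P Q)
    (s : Finset (Submodule ℂ A6)) (hs : ∀ P ∈ s, IsPlaneIn F P) (n : ℤ)
    (a : Submodule ℂ A6 → ℤ) : (4 : ℤ) ∣ disc s n a := by
  rw [disc_eq]
  exact sum_four (fun P Q hP hQ hd => h ⟨P, Q, hP, hQ, hd⟩) a s hs

/-- Two disjoint planes give discriminant fourteen. -/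
theorem disc_fourteen {F : MvPolynomial (Fin 6) ℂ}
    (h : ∃ P Q, IsPlaneIn F P ∧ IsPlaneIn F Q ∧ Disjoint P Q) :
    ∃ s : Finset (Submodule ℂ A6), (∀ P ∈ s, IsPlaneIn F P) ∧ ∃ n a, disc s n a = 14 := by
  classical
  obtain ⟨P, Q, hP, hQ, hd⟩ := h
  have h1 : finrank ℂ ↥(P ⊓ Q) = 0 := by
    rw [disjoint_iff.mp hd, finrank_bot]
  have hne : P ≠ Q := by
    intro h2
    rw [h2, inf_idem, hQ.1] at h1
    omega
  have h3 : inter P Q = 0 := by
    rw [inter, if_neg hne, h1]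
    norm_num
  refine ⟨{P, Q}, ?_, 0, fun _ => 1, ?_⟩
  · intro R hR
    rcases Finset.mem_insert.mp hR with rfl | hR
    · exact hP
    · rw [Finset.mem_singleton.mp hR]
      exact hQ
  · rw [disc_eq]
    rw [Finset.sum_pair hne, Finset.sum_pair hne, Finset.sum_pair hne, inter_comm Q P, h3,
      inter_self, inter_self]
    norm_num

end Vale.Agent.P287.R2.H248
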