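import Vale.Agent.P287.R2.H248.Assembly
import Vale.Agent.P287.R2.H248.Bad

/-!
P287: a smooth cubic surface over the complex numbers contains a line; two Eckardt points.
-/

namespace Vale.Agent.P287.R2.H248

open Module Submodule

/-- **A smooth cubic surface over the complex numbers contains a line.** -/
theorem exists_line_four (S : Tri (Fin 4 → ℂ)) (hS : S.Smooth) :
    ∃ U : Submodule ℂ (Fin 4 → ℂ), finrank ℂ U = 2 ∧ S.Iso U :=
  line_of_bad (fun _ h l => finite_bad h l) S hS

/-- A cubic fourfold with an Eckardt point contains a plane through it. -/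
theorem eckardt_plane_through {F : MvPolynomial (Fin 6) ℂ} (hF : IsCubicFourfold F) {p : A6}
    (hp : IsEckardt F p) : ∃ P, IsPlaneIn F P ∧ p ∈ P :=
  eckardt_has_plane (fun _ h l => finite_bad h l) hF hp

/-- A cubic fourfold with two Eckardt points contains two disjoint planes. -/
theorem two_eckardt_points {F : MvPolynomial (Fin 6) ℂ} (hF : IsCubicFourfold F) {p q : A6}
    (hp : IsEckardt F p) (hq : IsEckardt F q) (hpq : q ∉ span ℂ {p}) :
    ∃ P Q, IsPlaneIn F P ∧ IsPlaneIn F Q ∧ Disjoint P Q :=
  two_eckardt_all (fun _ h l => finite_bad h l) hF hp hq hpq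

end Vale.Agent.P287.R2.H248
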