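import Mathlib

/-!
P287: a line on a smooth cubic surface over the complex numbers has a disjoint line.
The cubic form is the diagonal of a symmetric trilinear form.
-/

namespace Vale.Agent.P287.R2.H248

open Module Submodule

/-- A symmetric trilinear form. -/
structure Tri (V : Type*) [AddCommGroup V] [Module ℂ V] where
  T : V →ₗ[ℂ] V →ₗ[ℂ] V →ₗ[ℂ] ℂ
  s12 : ∀ u v w, T u v w = T v u w
  s23 : ∀ u v w, T u v w = T u w v

variable {V : Type*} [AddCommGroup V] [Module ℂ V]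

namespace Tri

variable (S : Tri V)

/-- The cubic hypersurface is smooth. -/
def Smooth : Prop := ∀ v, (∀ w, S.T v v w = 0) → v = 0

/-- The cubic form vanishes on the subspace. -/
def Iso (U : Submodule ℂ V) : Prop := ∀ u ∈ U, S.T u u u = 0

lemma s13 (u v w : V) : S.T u v w = S.T w v u := by
  rw [S.s12, S.s23, S.s12]

lemma cyc (u v w : V) : S.T u v w = S.T v w u := by
  rw [S.s12, S.s23]

lemma sq_add (x y : ℂ) (a b w : V) : S.T (x • a + y • b) (x • a + y • b) w =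
    x ^ 2 * S.T a a w + 2 * x * y * S.T a b w + y ^ 2 * S.T b b w := by
  simp only [map_add, map_smul, LinearMap.add_apply, LinearMap.smul_apply, smul_eq_mul]
  rw [S.s12 b a w]
  ring

lemma cube_add (x y : ℂ) (a b : V) :
    S.T (x • a + y • b) (x • a + y • b) (x • a + y • b) =
    x ^ 3 * S.T a a a + 3 * x ^ 2 * y * S.T a a b + 3 * x * y ^ 2 * S.T a b b +
      y ^ 3 * S.T b b b := by
  rw [sq_add]
  simp only [map_add, map_smul, smul_eq_mul]
  rw [S.s23 a b a, ← S.cyc a b b]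
  ring

variable {S}

lemma Iso.two {U : Submodule ℂ V} (h : S.Iso U) {u v : V} (hu : u ∈ U) (hv : v ∈ U) :
    S.T u u v = 0 := by
  have h1 := h _ (U.add_mem (U.smul_mem 1 hu) (U.smul_mem 1 hv))
  have h2 := h _ (U.add_mem (U.smul_mem 1 hu) (U.smul_mem (-1) hv))
  rw [S.cube_add, h u hu, h v hv] at h1 h2
  linear_combination (1 / 6 : ℂ) * (h1 - h2)

lemma Iso.three {U : Submodule ℂ V} (h : S.Iso U) {u v w : V} (hu : u ∈ U) (hv : v ∈ U)
    (hw : w ∈ U) : S.T u v w = 0 := by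
  have h1 := h.two (U.add_mem (U.smul_mem 1 hu) (U.smul_mem 1 hv)) hw
  rw [S.sq_add, h.two hu hw, h.two hv hw] at h1
  linear_combination (1 / 2 : ℂ) * h1

lemma Iso.mono {U W : Submodule ℂ V} (h : S.Iso W) (hU : U ≤ W) : S.Iso U :=
  fun u hu => h u (hU hu)

lemma iso_span_pair {a b : V} (h1 : S.T a a a = 0) (h2 : S.T a a b = 0) (h3 : S.T a b b = 0)
    (h4 : S.T b b b = 0) : S.Iso (span ℂ {a, b}) := by
  intro u hu
  obtain ⟨x, y, rfl⟩ := mem_span_pair.mp hu
  rw [S.cube_add, h1, h2, h3, h4]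
  ring

end Tri

/-! ### Linear algebra -/

/-- A binary quadratic form has a zero. -/
lemma quad_zero (a b c : ℂ) : ∃ s r : ℂ, (s ≠ 0 ∨ r ≠ 0) ∧
    s ^ 2 * a + 2 * s * r * b + r ^ 2 * c = 0 := by
  by_cases ha : a = 0
  · exact ⟨1, 0, Or.inl one_ne_zero, by rw [ha]; ring⟩
  · obtain ⟨z, hz⟩ := IsAlgClosed.exists_pow_nat_eq (b ^ 2 - a * c) (n := 2) (by norm_num)
    refine ⟨(-b + z) / a, 1, Or.inr one_ne_zero, ?_⟩
    field_simp
    linear_combination hz

lemma finrank_sup_single [FiniteDimensional ℂ V] {U : Submodule ℂ V} {q : V} (hq : q ∉ U) :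
    finrank ℂ ↥(U ⊔ span ℂ {q}) = finrank ℂ U + 1 := by
  have hq0 : q ≠ 0 := fun h => hq (h ▸ U.zero_mem)
  have h1 := Submodule.finrank_sup_add_finrank_inf_eq U (span ℂ {q})
  have h2 : U ⊓ span ℂ {q} = ⊥ := by
    rw [Submodule.eq_bot_iff]
    rintro x ⟨hx, hx2⟩
    obtain ⟨c, rfl⟩ := mem_span_singleton.mp hx2
    by_cases hc : c = 0
    · rw [hc, zero_smul]
    · exact absurd ((U.smul_mem_iff hc).mp hx) hq
  rw [h2, finrank_bot, finrank_span_singleton hq0] at h1
  omega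

lemma exists_not_mem [FiniteDimensional ℂ V] {U : Submodule ℂ V} (h : finrank ℂ U < finrank ℂ V) :
    ∃ q, q ∉ U := by
  by_contra hcon
  push Not at hcon
  have : U = ⊤ := by
    rw [eq_top_iff]
    exact fun x _ => hcon x
  rw [this, finrank_top] at h
  exact lt_irrefl _ h

lemma decomp [FiniteDimensional ℂ V] (hV : finrank ℂ V = 4) {U : Submodule ℂ V}
    (hU : finrank ℂ U = 2) {q e : V} (hq : q ∉ U) (he : e ∉ U ⊔ span ℂ {q}) (w : V) :
    ∃ u ∈ U, ∃ a b : ℂ, w = u + a • q + b • e := by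
  have h1 := finrank_sup_single hq
  have h2 := finrank_sup_single he
  have h3 : (U ⊔ span ℂ {q}) ⊔ span ℂ {e} = ⊤ := by
    apply Submodule.eq_top_of_finrank_eq
    rw [h2, h1, hU, hV]
  have hw : w ∈ (U ⊔ span ℂ {q}) ⊔ span ℂ {e} := by rw [h3]; trivial
  obtain ⟨y, hy, z, hz, rfl⟩ := mem_sup.mp hw
  obtain ⟨u, hu, t, ht, rfl⟩ := mem_sup.mp hy
  obtain ⟨a, rfl⟩ := mem_span_singleton.mp ht
  obtain ⟨b, rfl⟩ := mem_span_singleton.mp hz
  exact ⟨u, hu, a, b, rfl⟩

/-- A basis of a plane starting with a given vector. -/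
lemma exists_pair [FiniteDimensional ℂ V] {U : Submodule ℂ V} (hU : finrank ℂ U = 2) {u : V}
    (hu : u ∈ U) (hu0 : u ≠ 0) : ∃ e ∈ U, e ∉ span ℂ {u} ∧ span ℂ {u, e} = U := by
  have h1 : ¬ U ≤ span ℂ {u} := by
    intro h
    have := Submodule.finrank_mono h
    rw [hU, finrank_span_singleton hu0] at this
    omega
  obtain ⟨e, he, he2⟩ := Set.not_subset.mp h1
  refine ⟨e, he, he2, ?_⟩
  have h2 : span ℂ {u, e} = span ℂ {u} ⊔ span ℂ {e} := by
    rw [← span_union, Set.singleton_union]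
  apply Submodule.eq_of_le_of_finrank_eq
  · rw [span_le]
    rintro x (rfl | rfl)
    · exact hu
    · exact he
  · rw [h2, finrank_sup_single he2, finrank_span_singleton hu0, hU]

end Vale.Agent.P287.R2.H248
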