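import Vale.Agent.P287.R2.H248.Eckardt
import Vale.Agent.P287.R2.H248.Defs

/-!
P287: the symmetric trilinear form of a homogeneous cubic polynomial.
-/

namespace Vale.Agent.P287.R2.H248

open MvPolynomial

lemma pderiv_comm' {n : ℕ} (i j : Fin n) (F : MvPolynomial (Fin n) ℂ) :
    pderiv i (pderiv j F) = pderiv j (pderiv i F) := by
  have h : ⁅pderiv (R := ℂ) i, pderiv (R := ℂ) j⁆ = 0 := by
    apply MvPolynomial.derivation_ext
    intro k
    rw [Derivation.commutator_apply, pderiv_X, pderiv_X, Derivation.zero_apply]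
    by_cases h1 : j = k <;> by_cases h2 : i = k
    all_goals simp [h1, h2]
  have h1 := congrArg (fun D => D F) h
  simp only [Derivation.commutator_apply, Derivation.zero_apply] at h1
  exact sub_eq_zero.mp h1

variable {n : ℕ}

/-- The third derivatives. -/
noncomputable def D3 (F : MvPolynomial (Fin n) ℂ) (i j k : Fin n) : ℂ :=
  eval 0 (pderiv k (pderiv j (pderiv i F)))

/-- The trilinear form of a cubic form. -/
noncomputable def polT (F : MvPolynomial (Fin n) ℂ) :
    (Fin n → ℂ) →ₗ[ℂ] (Fin n → ℂ) →ₗ[ℂ] (Fin n → ℂ) →ₗ[ℂ] ℂ :=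
  ∑ i, ∑ j, ∑ k, (D3 F i j k / 6) • (LinearMap.proj i : (Fin n → ℂ) →ₗ[ℂ] ℂ).smulRight
    ((LinearMap.proj j : (Fin n → ℂ) →ₗ[ℂ] ℂ).smulRight (LinearMap.proj k : (Fin n → ℂ) →ₗ[ℂ] ℂ))

lemma polT_apply (F : MvPolynomial (Fin n) ℂ) (u v w : Fin n → ℂ) :
    polT F u v w = ∑ i, ∑ j, ∑ k, D3 F i j k / 6 * (u i * (v j * w k)) := by
  unfold polT
  simp only [LinearMap.sum_apply, LinearMap.smul_apply, LinearMap.smulRight_apply,
    LinearMap.proj_apply, smul_eq_mul]

/-- The symmetric trilinear form of a cubic form. -/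
noncomputable def pol (F : MvPolynomial (Fin n) ℂ) : Tri (Fin n → ℂ) where
  T := polT F
  s12 := by
    intro u v w
    rw [polT_apply, polT_apply, Finset.sum_comm]
    refine Finset.sum_congr rfl fun j _ => Finset.sum_congr rfl fun i _ =>
      Finset.sum_congr rfl fun k _ => ?_
    have : D3 F i j k = D3 F j i k := by
      unfold D3
      rw [pderiv_comm' j i]
    rw [this]
    ring
  s23 := by
    intro u v w
    rw [polT_apply, polT_apply]
    refine Finset.sum_congr rfl fun i _ => ?_
    rw [Finset.sum_comm]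
    refine Finset.sum_congr rfl fun k _ => Finset.sum_congr rfl fun j _ => ?_
    have : D3 F i j k = D3 F i k j := by
      unfold D3
      rw [pderiv_comm' k j]
    rw [this]
    ring

lemma euler_eval {F : MvPolynomial (Fin n) ℂ} {d : ℕ} (h : F.IsHomogeneous d) (v : Fin n → ℂ) :
    ∑ i, v i * eval v (pderiv i F) = d * eval v F := by
  have := congrArg (eval v) h.sum_X_mul_pderiv
  simpa [map_sum] using this

/-- The second derivatives. -/
lemma sum_D3 {F : MvPolynomial (Fin n) ℂ} (h : F.IsHomogeneous 3) (v : Fin n → ℂ) (i j : Fin n) :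
    ∑ k, v k * D3 F i j k = eval v (pderiv j (pderiv i F)) := by
  have h1 : (pderiv j (pderiv i F)).IsHomogeneous 1 := (h.pderiv (i := i)).pderiv (i := j)
  have h2 := euler_eval h1 v
  have h3 : ∀ k, eval v (pderiv k (pderiv j (pderiv i F))) = D3 F i j k := by
    intro k
    have h4 : (pderiv k (pderiv j (pderiv i F))).IsHomogeneous 0 := h1.pderiv (i := k)
    rw [← totalDegree_zero_iff_isHomogeneous, totalDegree_eq_zero_iff_eq_C] at h4
    unfold D3
    rw [h4, eval_C, eval_C]
  simp only [h3, Nat.cast_one, one_mul] at h2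
  exact h2

lemma sum_D2 {F : MvPolynomial (Fin n) ℂ} (h : F.IsHomogeneous 3) (v : Fin n → ℂ) (i : Fin n) :
    ∑ j, ∑ k, v j * v k * D3 F i j k = 2 * eval v (pderiv i F) := by
  have h1 : (pderiv i F).IsHomogeneous 2 := h.pderiv (i := i)
  have h2 := euler_eval h1 v
  push_cast at h2
  rw [← h2]
  refine Finset.sum_congr rfl fun j _ => ?_
  rw [← sum_D3 h v i j, Finset.mul_sum]
  exact Finset.sum_congr rfl fun k _ => by ring

/-- The polar form. -/
theorem pol_two {F : MvPolynomial (Fin n) ℂ} (h : F.IsHomogeneous 3) (v w : Fin n → ℂ) :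
    (pol F).T v v w = (1 / 3) * ∑ i, eval v (pderiv i F) * w i := by
  rw [← (pol F).cyc w v v]
  change polT F w v v = _
  rw [polT_apply, Finset.mul_sum]
  refine Finset.sum_congr rfl fun i _ => ?_
  have h1 := sum_D2 h v i
  calc ∑ j, ∑ k, D3 F i j k / 6 * (w i * (v j * v k)) =
      (w i / 6) * ∑ j, ∑ k, v j * v k * D3 F i j k := by
        rw [Finset.mul_sum]
        refine Finset.sum_congr rfl fun j _ => ?_
        rw [Finset.mul_sum]
        exact Finset.sum_congr rfl fun k _ => by ring
    _ = 1 / 3 * (eval v (pderiv i F) * w i) := by rw [h1]; ring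

theorem pol_three {F : MvPolynomial (Fin n) ℂ} (h : F.IsHomogeneous 3) (v : Fin n → ℂ) :
    (pol F).T v v v = eval v F := by
  rw [pol_two h]
  have h1 := euler_eval h v
  push_cast at h1
  have h2 : ∑ i, eval v (pderiv i F) * v i = ∑ i, v i * eval v (pderiv i F) :=
    Finset.sum_congr rfl fun i _ => mul_comm _ _
  rw [h2, h1]
  ring

theorem pol_smooth {F : MvPolynomial (Fin 6) ℂ} (h : IsCubicFourfold F) : (pol F).Smooth := by
  intro v hv
  apply h.2
  intro i
  have h1 := hv (Pi.single i 1)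
  rw [pol_two h.1] at h1
  have h2 : ∑ j, eval v (pderiv j F) * (Pi.single i (1 : ℂ) : Fin 6 → ℂ) j =
      eval v (pderiv i F) := by
    rw [Finset.sum_eq_single i]
    · simp
    · intro j _ hj
      simp [hj]
    · simp
  rw [h2] at h1
  linear_combination 3 * h1

theorem pol_iso {F : MvPolynomial (Fin 6) ℂ} (h : F.IsHomogeneous 3) {P : Submodule ℂ A6} :
    (pol F).Iso P ↔ ∀ v ∈ P, eval v F = 0 := by
  unfold Tri.Iso
  refine forall₂_congr fun v _ => ?_
  rw [pol_three h]

theorem pol_eckardt {F : MvPolynomial (Fin 6) ℂ} (h : F.IsHomogeneous 3) {p : A6}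
    (hE : IsEckardt F p) : (pol F).Eckardt p := by
  obtain ⟨hp0, hp, hcone⟩ := hE
  have hT : ∀ x, (pol F).T p p x = 0 → InTangent F p x := by
    intro x hx
    rw [pol_two h] at hx
    unfold InTangent
    linear_combination 3 * hx
  have hpp : (pol F).T p p p = 0 := by rw [pol_three h]; exact hp
  have hquad : ∀ x, (pol F).T p p x = 0 → (pol F).T p x x = 0 := by
    intro x hx
    have h1 := hcone x (hT x hx) 1
    rw [← pol_three h, ← pol_three h] at h1
    have h2 := (pol F).cube_add 1 1 x p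
    rw [one_smul, one_smul] at h2
    rw [one_smul, h2, hpp, (pol F).s13 x p p, hx, ← (pol F).cyc p x x] at h1
    linear_combination (1 / 3 : ℂ) * h1
  refine ⟨hp0, hpp, ?_⟩
  intro x y hx hy
  have hxy : (pol F).T p p (x + y) = 0 := by rw [map_add, hx, hy, add_zero]
  have h1 := hquad _ hxy
  simp only [map_add, LinearMap.add_apply] at h1
  rw [hquad x hx, hquad y hy, (pol F).s23 p y x] at h1
  linear_combination (1 / 2 : ℂ) * h1

end Vale.Agent.P287.R2.H248
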