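import Vale.Agent.P287.R2.H622.Twenty
import Vale.Agent.P287.R2.H62.Final42
import Vale.Agent.P287.R2.H992.Eck28
import Vale.Agent.P287.R2.H248.Polar

/-!
P287: many planes.
-/

namespace Vale.Agent.P287.R2.H248

open Module Submodule

theorem forty_two {F : MvPolynomial (Fin 6) ℂ} (hF : IsCubicFourfold F)
    (s : Finset (Submodule ℂ A6)) (hs : 42 ≤ s.card) (hsF : ∀ P ∈ s, IsPlaneIn F P) :
    ∃ P Q, IsPlaneIn F P ∧ IsPlaneIn F Q ∧ Disjoint P Q := by
  by_contra hcon
  push Not at hcon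
  have := H62.le_41 hF hcon (fun N p hp hm => H622.le_twenty (by simp) (pol_smooth hF) p
    (fun i => ⟨(hp i).1, (pol_iso hF.1).mpr (hp i).2⟩) hm) s hsF
  omega

end Vale.Agent.P287.R2.H248
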