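import Vale.Agent.P287.R2.H248.Lines

/-!
P287: the pencil `F - t ℓ ^ 3`; the rows of the proof that a smooth cubic surface contains a line.
-/

namespace Vale.Agent.P287.R2.H248

variable {V : Type*} [AddCommGroup V] [Module ℂ V]

namespace Tri

/-- The form of `F - t ℓ ^ 3`. -/
def pert (S : Tri V) (l : V →ₗ[ℂ] ℂ) (t : ℂ) : Tri V where
  T := S.T - t • l.smulRight (l.smulRight l)
  s12 := by
    intro u v w
    simp only [LinearMap.sub_apply, LinearMap.smul_apply, LinearMap.smulRight_apply, smul_eq_mul]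
    rw [S.s12 u v w]
    ring
  s23 := by
    intro u v w
    simp only [LinearMap.sub_apply, LinearMap.smul_apply, LinearMap.smulRight_apply, smul_eq_mul]
    rw [S.s23 u v w]
    ring

lemma pert_T (S : Tri V) (l : V →ₗ[ℂ] ℂ) (t : ℂ) (u v w : V) :
    (S.pert l t).T u v w = S.T u v w - t * (l u * (l v * l w)) := rfl

lemma pert_zero (S : Tri V) (l : V →ₗ[ℂ] ℂ) (u v w : V) :
    (S.pert l 0).T u v w = S.T u v w := by
  rw [pert_T]
  ring

end Tri

end Vale.Agent.P287.R2.H248
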