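import Mathlib

/-!
P287: the discriminant of the residual conics and its roots.
-/

namespace Vale.Agent.P287.R2.H248

open Polynomial

/-- The determinant of the residual conic (up to scaling of the last row). -/
def dt (A B C D E F : ℂ) : ℂ :=
  8 * (A * C - B ^ 2) * F - 6 * A * E ^ 2 + 12 * B * D * E - 6 * C * D ^ 2

lemma kernel_of_dt {A B C D E F : ℂ} (h : dt A B C D E F = 0) :
    ∃ x y t : ℂ, (x ≠ 0 ∨ y ≠ 0 ∨ t ≠ 0) ∧ 2 * (x * A + y * B) + t * D = 0 ∧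
      2 * (x * B + y * C) + t * E = 0 ∧ 3 * (x * D + y * E) + 2 * t * F = 0 := by
  have h1 : (!![2 * A, 2 * B, D; 2 * B, 2 * C, E; 3 * D, 3 * E, 2 * F] :
      Matrix (Fin 3) (Fin 3) ℂ).det = 0 := by
    rw [Matrix.det_fin_three]
    simp only [Matrix.of_apply, Matrix.cons_val', Matrix.cons_val_zero, Matrix.cons_val_one,
      Matrix.cons_val]
    unfold dt at h
    linear_combination h
  obtain ⟨v, hv0, hv⟩ := Matrix.exists_mulVec_eq_zero_iff.mpr h1
  refine ⟨v 0, v 1, v 2, ?_, ?_, ?_, ?_⟩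
  · by_contra hcon
    push Not at hcon
    apply hv0
    funext i
    fin_cases i
    · exact hcon.1
    · exact hcon.2.1
    · exact hcon.2.2
  · have := congrFun hv 0
    simp [Matrix.mulVec, dotProduct, Fin.sum_univ_three] at this
    linear_combination this
  · have := congrFun hv 1
    simp [Matrix.mulVec, dotProduct, Fin.sum_univ_three] at this
    linear_combination this
  · have := congrFun hv 2
    simp [Matrix.mulVec, dotProduct, Fin.sum_univ_three] at this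
    linear_combination this

/-- If the discriminant has no root then its two leading coefficients vanish. -/
lemma coeffs_of_no_root {a0 a1 b0 b1 c0 c1 d0 d1 d2 e0 e1 e2 f0 f1 f2 f3 : ℂ}
    (h : ∀ w : ℂ, dt (a0 + w * a1) (b0 + w * b1) (c0 + w * c1) (d0 + w * d1 + w ^ 2 * d2)
      (e0 + w * e1 + w ^ 2 * e2) (f0 + w * f1 + w ^ 2 * f2 + w ^ 3 * f3) ≠ 0) :
    dt a1 b1 c1 d2 e2 f3 = 0 ∧
    8 * (a1 * c1 - b1 ^ 2) * f2 + 8 * (a0 * c1 + a1 * c0 - 2 * b0 * b1) * f3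
      - 6 * (a0 * e2 ^ 2 + 2 * a1 * e1 * e2) + 12 * (b0 * d2 * e2 + b1 * d1 * e2 + b1 * d2 * e1)
      - 6 * (c0 * d2 ^ 2 + 2 * c1 * d1 * d2) = 0 := by
  set A : ℂ[X] := C a0 + X * C a1
  set B : ℂ[X] := C b0 + X * C b1
  set C' : ℂ[X] := C c0 + X * C c1
  set D : ℂ[X] := C d0 + X * C d1 + X ^ 2 * C d2
  set E : ℂ[X] := C e0 + X * C e1 + X ^ 2 * C e2
  set F : ℂ[X] := C f0 + X * C f1 + X ^ 2 * C f2 + X ^ 3 * C f3
  set P : ℂ[X] := C 8 * (A * C' - B ^ 2) * F - C 6 * A * E ^ 2 + C 12 * B * D * E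
    - C 6 * C' * D ^ 2 with hP
  have hev : ∀ w : ℂ, P.eval w = dt (a0 + w * a1) (b0 + w * b1) (c0 + w * c1)
      (d0 + w * d1 + w ^ 2 * d2) (e0 + w * e1 + w ^ 2 * e2)
      (f0 + w * f1 + w ^ 2 * f2 + w ^ 3 * f3) := by
    intro w
    simp only [hP, A, B, C', D, E, F, dt, eval_sub, eval_add, eval_mul, eval_pow, eval_C, eval_X]
  have hdeg : P.degree = 0 := by
    by_contra hne
    obtain ⟨w, hw⟩ := IsAlgClosed.exists_root P hne
    exact h w (by rw [← hev w]; exact hw)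
  obtain ⟨c, hc⟩ : ∃ c : ℂ, ∀ w : ℂ, P.eval w = c := by
    refine ⟨P.coeff 0, fun w => ?_⟩
    conv_lhs => rw [Polynomial.eq_C_of_degree_le_zero hdeg.le]
    rw [eval_C]
  have h0 := (hev 0).symm.trans (hc 0)
  have h1 := (hev 1).symm.trans (hc 1)
  have h2 := (hev 2).symm.trans (hc 2)
  have h3 := (hev 3).symm.trans (hc 3)
  have h4 := (hev 4).symm.trans (hc 4)
  have h5 := (hev 5).symm.trans (hc 5)
  clear hev hc hdeg h
  clear_value P
  unfold dt at *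
  have k5 : 8 * (a1 * c1 - b1 ^ 2) * f3 - 6 * a1 * e2 ^ 2 + 12 * b1 * d2 * e2 - 6 * c1 * d2 ^ 2
      = 0 := by
    linear_combination (1 / 120 : ℂ) * (h5 - 5 * h4 + 10 * h3 - 10 * h2 + 5 * h1 - h0)
  refine ⟨k5, ?_⟩
  linear_combination (1 / 24 : ℂ) * (h4 - 4 * h3 + 6 * h2 - 4 * h1 + h0) - 10 * k5

end Vale.Agent.P287.R2.H248
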