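import Vale.Agent.P287.R2.H11.Seven
import Vale.Agent.P287.R2.H62.RowS2b
import Vale.Agent.P287.R2.H847.RowS1
import Vale.Agent.P287.R2.H946.S2a

/-!
P287: a cubic fourfold with 27 planes, no two of them disjoint.
-/

namespace Vale.Agent.P287.R2.H248

open Module

theorem sharp : ∃ F, IsCubicFourfold F ∧
    (∃ s : Finset (Submodule ℂ A6), s.card = 27 ∧ ∀ P ∈ s, IsPlaneIn F P) ∧
    ¬ ∃ P Q, IsPlaneIn F P ∧ IsPlaneIn F Q ∧ Disjoint P Q := by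
  refine ⟨H847.S1.F0, H847.S1.row_S1, H11.row_S3, ?_⟩
  rintro ⟨P, Q, hP, hQ, hd⟩
  have hS2a : ∀ W : Submodule ℂ A6, finrank ℂ W = 2 → ∀ y : Fin 4 → W →ₗ[ℂ] ℂ,
      (∀ x, (∀ i, y i x = 0) → x = 0) → (∀ x, ∑ i, y i x ^ 3 = 0) →
      ∃ σ : Equiv.Perm (Fin 4), (∀ x, y (σ 0) x ^ 3 + y (σ 1) x ^ 3 = 0) ∧
        ∀ x, y (σ 2) x ^ 3 + y (σ 3) x ^ 3 = 0 :=
    fun W hW y h1 h2 => H946.row_S2a hW y h1 h2
  have h1 := H62.contains_e5 hS2a P hP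
  have h2 := H62.contains_e5 hS2a Q hQ
  have h3 := Submodule.disjoint_def.mp hd _ h1 h2
  have h4 := congrFun h3 5
  simp at h4

end Vale.Agent.P287.R2.H248
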