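import Vale.Agent.P287.R2.H248.Polar

/-!
P287: a smooth cubic fourfold with two Eckardt points which contains a plane, or the line through
the two points, contains two disjoint planes.
-/

namespace Vale.Agent.P287.R2.H248

open Module Submodule

variable {V : Type*} [AddCommGroup V] [Module ℂ V] {S : Tri V}

namespace Tri

lemma finrank_tangent [FiniteDimensional ℂ V] (hS : S.Smooth) (hV : finrank ℂ V = 6)
    {p : V} (hp0 : p ≠ 0) : finrank ℂ ↥(LinearMap.ker (S.T p p)) = 5 := by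
  have h0 : S.T p p ≠ 0 := by
    intro h0
    apply hp0
    apply hS
    intro w
    rw [h0]
    rfl
  have h1 : finrank ℂ ↥(LinearMap.ker (S.T p p)) + 1 = finrank ℂ V :=
    Module.Dual.finrank_ker_add_one_of_ne_zero (f := S.T p p) h0
  omega

/-- **Eckardt point and a plane through it: a second plane meeting it in the point only.** -/
theorem exists_plane_through [FiniteDimensional ℂ V] (hS : S.Smooth) (hV : finrank ℂ V = 6)
    {p : V} (hE : S.Eckardt p) {P : Submodule ℂ V} (hP : finrank ℂ P = 3) (hI : S.Iso P)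
    (hpP : p ∈ P) :
    ∃ Q : Submodule ℂ V, finrank ℂ Q = 3 ∧ S.Iso Q ∧ p ∈ Q ∧ P ⊓ Q ≤ span ℂ {p} := by
  have hE' := hE
  obtain ⟨hp0, hpp, hcone⟩ := hE'
  have hH5 := finrank_tangent hS hV hp0
  set H := LinearMap.ker (S.T p p) with hH
  have hpH : p ∈ H := hpp
  have hPH : P ≤ H := fun v hv => hI.two hpP hv
  obtain ⟨C, hC⟩ := (span ℂ {p}).exists_isCompl
  have hC := hC.symm
  set W := C ⊓ H with hW
  have hsp : span ℂ {p} ≤ H := span_le.mpr (Set.singleton_subset_iff.mpr hpH)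
  have hspP : span ℂ {p} ≤ P := span_le.mpr (Set.singleton_subset_iff.mpr hpP)
  have hWp : W ⊔ span ℂ {p} = H := by
    rw [hW, sup_comm, ← sup_inf_assoc_of_le _ hsp, sup_comm, hC.sup_eq_top, top_inf_eq]
  have hWd : Disjoint W (span ℂ {p}) := hC.disjoint.mono_left inf_le_left
  have hW4 : finrank ℂ W = 4 := by
    have h1 := Submodule.finrank_sup_add_finrank_inf_eq W (span ℂ {p})
    rw [hWp, hWd.eq_bot, finrank_bot, finrank_span_singleton hp0, hH5] at h1
    omega
  have hsm : (S.comap W.subtype).Smooth := base_smooth hS hE hWp hWd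
  have hmP : (W ⊓ P) ⊔ span ℂ {p} = P := by
    rw [sup_comm, ← sup_inf_assoc_of_le _ hspP, sup_comm, hWp]
    exact inf_eq_right.mpr hPH
  have hm2 : finrank ℂ ↥(W ⊓ P) = 2 := by
    have h1 := Submodule.finrank_sup_add_finrank_inf_eq (W ⊓ P) (span ℂ {p})
    rw [hmP, (hWd.mono_left inf_le_left).eq_bot, finrank_bot, finrank_span_singleton hp0, hP] at h1
    omega
  have hm2' : finrank ℂ ↥((W ⊓ P).comap W.subtype) = 2 := by
    rw [← hm2]
    exact (Submodule.comapSubtypeEquivOfLe inf_le_left).finrank_eq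
  obtain ⟨L, hL2, hLI, hLd⟩ := exists_disjoint hsm hW4 hm2' (fun u hu => hI _ hu.2)
  set L' := L.map W.subtype with hL'
  have hL'2 : finrank ℂ L' = 2 := by
    rw [hL', ← hL2]
    exact (LinearEquiv.finrank_eq (L.equivMapOfInjective W.subtype
      (Submodule.injective_subtype W))).symm
  have hL'W : L' ≤ W := Submodule.map_subtype_le W L
  have hpL' : p ∉ L' := by
    intro h
    exact hp0 ((Submodule.disjoint_def.mp hWd) p (hL'W h) (mem_span_singleton_self p))
  refine ⟨L' ⊔ span ℂ {p}, ?_, ?_, mem_sup_right (mem_span_singleton_self p), ?_⟩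
  · rw [finrank_sup_single hpL', hL'2]
  · intro u hu
    obtain ⟨a, ha, z, hz, rfl⟩ := mem_sup.mp hu
    obtain ⟨c, rfl⟩ := mem_span_singleton.mp hz
    have haH : S.T p p a = 0 := (hL'W ha).2
    have haa : S.T a a a = 0 := by
      obtain ⟨x, hx, rfl⟩ := Submodule.mem_map.mp ha
      exact hLI x hx
    have h1 := S.cube_add 1 c a p
    rw [one_smul] at h1
    rw [h1, haa, hpp, S.s13 a p p, haH, ← S.cyc p a a, hcone a a haH haH]
    ring
  · rintro x ⟨hxP, hxQ⟩
    obtain ⟨a, ha, z, hz, hxaz⟩ := mem_sup.mp hxQ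
    have haP : a ∈ P := by
      have : a = x - z := by rw [← hxaz]; abel
      rw [this]
      exact P.sub_mem hxP (hspP hz)
    obtain ⟨y, hy, hya⟩ := Submodule.mem_map.mp ha
    have h1 : y ∈ (W ⊓ P).comap W.subtype := by
      rw [Submodule.mem_comap, hya]
      exact ⟨hL'W ha, haP⟩
    have h2 := (Submodule.disjoint_def.mp hLd) y h1 hy
    have ha0 : a = 0 := by rw [← hya, h2, map_zero]
    rw [← hxaz, ha0, zero_add]
    exact hz

/-- **Two Eckardt points and a plane: two disjoint planes.** -/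
theorem two_eckardt_plane [FiniteDimensional ℂ V] (hS : S.Smooth) (hV : finrank ℂ V = 6)
    {p q : V} (hp : S.Eckardt p) (hq : S.Eckardt q) (hpq : q ∉ span ℂ {p})
    {P : Submodule ℂ V} (hP : finrank ℂ P = 3) (hI : S.Iso P) :
    ∃ P' Q' : Submodule ℂ V, finrank ℂ P' = 3 ∧ S.Iso P' ∧ finrank ℂ Q' = 3 ∧ S.Iso Q' ∧
      Disjoint P' Q' := by
  by_cases hpP : p ∈ P
  · by_cases hqP : q ∈ P
    · obtain ⟨Q, hQ3, hQI, -, hPQ⟩ := exists_plane_through hS hV hp hP hI hpP
      have hqQ : q ∉ Q := fun h => hpq (hPQ ⟨hqP, h⟩)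
      obtain ⟨R, hR3, hRI, -, hd⟩ := exists_disjoint_plane hS hV hq hQ3 hQI hqQ
      exact ⟨Q, R, hQ3, hQI, hR3, hRI, hd⟩
    · obtain ⟨R, hR3, hRI, -, hd⟩ := exists_disjoint_plane hS hV hq hP hI hqP
      exact ⟨P, R, hP, hI, hR3, hRI, hd⟩
  · obtain ⟨R, hR3, hRI, -, hd⟩ := exists_disjoint_plane hS hV hp hP hI hpP
    exact ⟨P, R, hP, hI, hR3, hRI, hd⟩

/-- A binary cubic form has a zero. -/
lemma cubic_zero (a b c d : ℂ) : ∃ x y : ℂ, (x ≠ 0 ∨ y ≠ 0) ∧
    x ^ 3 * a + 3 * x ^ 2 * y * b + 3 * x * y ^ 2 * c + y ^ 3 * d = 0 := by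
  by_cases ha : a = 0
  · exact ⟨1, 0, Or.inl one_ne_zero, by rw [ha]; ring⟩
  · have hdeg : (Polynomial.C a * Polynomial.X ^ 3 + Polynomial.C (3 * b) * Polynomial.X ^ 2 +
        Polynomial.C (3 * c) * Polynomial.X + Polynomial.C d).degree = 3 :=
      Polynomial.degree_cubic ha
    obtain ⟨x, hx⟩ := IsAlgClosed.exists_root _ (by rw [hdeg]; norm_num)
    refine ⟨x, 1, Or.inr one_ne_zero, ?_⟩
    simp only [Polynomial.IsRoot.def, Polynomial.eval_add, Polynomial.eval_mul,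
      Polynomial.eval_C, Polynomial.eval_pow, Polynomial.eval_X] at hx
    linear_combination hx

/-- **Two Eckardt points and the line through them: a plane.** -/
theorem exists_plane_of_line [FiniteDimensional ℂ V] (hS : S.Smooth) (hV : finrank ℂ V = 6)
    {p q : V} (hp : S.Eckardt p) (hq : S.Eckardt q) (hpq : q ∉ span ℂ {p})
    (h1 : S.T p p q = 0) (h2 : S.T q q p = 0) :
    ∃ P : Submodule ℂ V, finrank ℂ P = 3 ∧ S.Iso P := by
  obtain ⟨hp0, hpp, hpc⟩ := hp
  obtain ⟨hq0, hqq, hqc⟩ := hq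
  have hp5 := finrank_tangent hS hV hp0
  have hq5 := finrank_tangent hS hV hq0
  set K := LinearMap.ker (S.T p p) ⊓ LinearMap.ker (S.T q q) with hK
  have hK4 : 4 ≤ finrank ℂ K := by
    have h3 := Submodule.finrank_sup_add_finrank_inf_eq (LinearMap.ker (S.T p p))
      (LinearMap.ker (S.T q q))
    have h4 := Submodule.finrank_le (LinearMap.ker (S.T p p) ⊔ LinearMap.ker (S.T q q))
    rw [hV] at h4
    rw [hp5, hq5, ← hK] at h3
    omega
  have hpK : p ∈ K := ⟨hpp, h2⟩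
  have hqK : q ∈ K := ⟨h1, hqq⟩
  have hA2 := finrank_span_pair' hp0 hpq
  set A := span ℂ {p, q} with hA
  obtain ⟨e, heK, heA⟩ : ∃ e ∈ K, e ∉ A := by
    have h3 : ¬ K ≤ A := by
      intro h
      have := Submodule.finrank_mono h
      omega
    obtain ⟨e, he, he2⟩ := Set.not_subset.mp h3
    exact ⟨e, he, he2⟩
  have hB3 := finrank_sup_single heA
  obtain ⟨f, hfK, hfB⟩ : ∃ f ∈ K, f ∉ A ⊔ span ℂ {e} := by
    have h3 : ¬ K ≤ A ⊔ span ℂ {e} := by
      intro h
      have := Submodule.finrank_mono h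
      omega
    obtain ⟨f, hf, hf2⟩ := Set.not_subset.mp h3
    exact ⟨f, hf, hf2⟩
  obtain ⟨x, y, hxy, hxy0⟩ := cubic_zero (S.T e e e) (S.T e e f) (S.T e f f) (S.T f f f)
  set w := x • e + y • f with hw
  have hwK : w ∈ K := K.add_mem (K.smul_mem _ heK) (K.smul_mem _ hfK)
  have hww : S.T w w w = 0 := by
    rw [hw, S.cube_add]
    linear_combination hxy0
  have hwA : w ∉ A := by
    intro h
    by_cases hy : y = 0
    · have hx : x ≠ 0 := by
        rcases hxy with h | h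
        · exact h
        · exact absurd hy h
      rw [hw, hy, zero_smul, add_zero] at h
      exact heA ((A.smul_mem_iff hx).mp h)
    · apply hfB
      have h3 : y • f = w - x • e := by rw [hw]; abel
      have h4 : y • f ∈ A ⊔ span ℂ {e} := by
        rw [h3]
        exact (A ⊔ span ℂ {e}).sub_mem (mem_sup_left h)
          ((A ⊔ span ℂ {e}).smul_mem _ (mem_sup_right (mem_span_singleton_self e)))
      exact ((A ⊔ span ℂ {e}).smul_mem_iff hy).mp h4
  refine ⟨A ⊔ span ℂ {w}, by rw [finrank_sup_single hwA, hA2], ?_⟩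
  have hAI : S.Iso A := iso_span_pair hpp h1 (by rw [S.cyc]; exact h2) hqq
  intro v hv
  obtain ⟨a, ha, z, hz, rfl⟩ := mem_sup.mp hv
  obtain ⟨c, rfl⟩ := mem_span_singleton.mp hz
  have h3 := S.cube_add 1 c a w
  rw [one_smul] at h3
  obtain ⟨r, s, rfl⟩ := mem_span_pair.mp ha
  have haw : S.T (r • p + s • q) (r • p + s • q) w = 0 := by
    rw [S.sq_add]
    have z1 : S.T p p w = 0 := hwK.1
    have z2 : S.T q q w = 0 := hwK.2
    have z3 : S.T p q w = 0 := hpc q w h1 hwK.1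
    rw [z1, z2, z3]
    ring
  have haww : S.T (r • p + s • q) w w = 0 := by
    have z1 : S.T p w w = 0 := hpc w w hwK.1 hwK.1
    have z2 : S.T q w w = 0 := hqc w w hwK.2 hwK.2
    simp only [map_add, map_smul, LinearMap.add_apply, LinearMap.smul_apply, smul_eq_mul]
    rw [z1, z2]
    ring
  rw [h3, hAI _ ha, haw, haww, hww]
  ring

end Tri

/-! ### Cubic fourfolds -/

/-- **An Eckardt point and a plane not through it.** -/
theorem eckardt_plane {F : MvPolynomial (Fin 6) ℂ} (hF : IsCubicFourfold F) {p : A6}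
    (hp : IsEckardt F p) {P : Submodule ℂ A6} (hP : IsPlaneIn F P) (hpP : p ∉ P) :
    ∃ P Q, IsPlaneIn F P ∧ IsPlaneIn F Q ∧ Disjoint P Q := by
  have hV : finrank ℂ A6 = 6 := by simp
  obtain ⟨Q, hQ3, hQI, -, hd⟩ := Tri.exists_disjoint_plane (pol_smooth hF) hV
    (pol_eckardt hF.1 hp) hP.1 ((pol_iso hF.1).mpr hP.2) hpP
  exact ⟨P, Q, hP, ⟨hQ3, (pol_iso hF.1).mp hQI⟩, hd⟩

/-- **Two Eckardt points, and a plane or the line through the two points.** -/
theorem two_eckardt {F : MvPolynomial (Fin 6) ℂ} (hF : IsCubicFourfold F) {p q : A6}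
    (hp : IsEckardt F p) (hq : IsEckardt F q) (hpq : q ∉ span ℂ {p})
    (h : (∃ P, IsPlaneIn F P) ∨ ∀ a b : ℂ, MvPolynomial.eval (a • p + b • q) F = 0) :
    ∃ P Q, IsPlaneIn F P ∧ IsPlaneIn F Q ∧ Disjoint P Q := by
  have hV : finrank ℂ A6 = 6 := by simp
  obtain ⟨P, hP3, hPI⟩ : ∃ P : Submodule ℂ A6, finrank ℂ P = 3 ∧ (pol F).Iso P := by
    rcases h with ⟨P, hP⟩ | h
    · exact ⟨P, hP.1, (pol_iso hF.1).mpr hP.2⟩
    · have hI : (pol F).Iso (span ℂ {p, q}) := by
        intro v hv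
        obtain ⟨a, b, rfl⟩ := mem_span_pair.mp hv
        rw [pol_three hF.1]
        exact h a b
      have hpm : p ∈ span ℂ {p, q} := subset_span (Set.mem_insert _ _)
      have hqm : q ∈ span ℂ {p, q} := subset_span (Set.mem_insert_of_mem _ rfl)
      exact Tri.exists_plane_of_line (pol_smooth hF) hV (pol_eckardt hF.1 hp)
        (pol_eckardt hF.1 hq) hpq (hI.two hpm hqm) (hI.two hqm hpm)
  obtain ⟨P', Q', h1, h2, h3, h4, h5⟩ := Tri.two_eckardt_plane (pol_smooth hF) hV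
    (pol_eckardt hF.1 hp) (pol_eckardt hF.1 hq) hpq hP3 hPI
  exact ⟨P', Q', ⟨h1, (pol_iso hF.1).mp h2⟩, ⟨h3, (pol_iso hF.1).mp h4⟩, h5⟩

end Vale.Agent.P287.R2.H248
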