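import Vale.Agent.P287.R2.H248.Pert
import Vale.Agent.P287.R2.H248.TwoPoints

/-!
P287: start of the continuity method: for a smooth cubic surface `F`, either `F` contains a line or
some `F - c ℓ ^ 3` contains a line along which it is smooth.
-/

namespace Vale.Agent.P287.R2.H248

open Module Submodule

variable {V : Type*} [AddCommGroup V] [Module ℂ V]

namespace Tri

variable {S : Tri V}

lemma comb_ne {e f : V} {W : Submodule ℂ V} (he : e ∉ W) (hf : f ∉ W ⊔ span ℂ {e}) {x y : ℂ}
    (hxy : x ≠ 0 ∨ y ≠ 0) : x • e + y • f ∉ W := by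
  intro h
  by_cases hy : y = 0
  · have hx : x ≠ 0 := by
      rcases hxy with h | h
      · exact h
      · exact absurd hy h
    rw [hy, zero_smul, add_zero] at h
    exact he ((W.smul_mem_iff hx).mp h)
  · apply hf
    rw [← (W ⊔ span ℂ {e}).smul_mem_iff hy]
    have h1 : y • f = (x • e + y • f) - x • e := by abel
    rw [h1]
    exact Submodule.sub_mem _ (mem_sup_left h)
      (mem_sup_right (smul_mem _ _ (mem_span_singleton_self e)))

/-- A point of the surface. -/
lemma exists_point [FiniteDimensional ℂ V] (hV : finrank ℂ V = 4) :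
    ∃ P : V, P ≠ 0 ∧ S.T P P P = 0 := by
  obtain ⟨e, he⟩ := exists_not_mem (U := (⊥ : Submodule ℂ V)) (by rw [hV]; simp)
  have h1 := finrank_sup_single he
  rw [finrank_bot] at h1
  obtain ⟨f, hf⟩ := exists_not_mem (U := (⊥ : Submodule ℂ V) ⊔ span ℂ {e})
    (by rw [hV, h1]; norm_num)
  obtain ⟨x, y, hxy, h0⟩ := cubic_zero (S.T e e e) (S.T e e f) (S.T e f f) (S.T f f f)
  refine ⟨x • e + y • f, fun h => comb_ne he hf hxy (by simpa using h), ?_⟩
  rw [S.cube_add]
  linear_combination h0

/-- An asymptotic line at a point of the surface. -/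
lemma exists_flex [FiniteDimensional ℂ V] (hV : finrank ℂ V = 4) :
    ∃ P R : V, P ≠ 0 ∧ R ∉ span ℂ {P} ∧ S.T P P P = 0 ∧ S.T P P R = 0 ∧ S.T P R R = 0 := by
  obtain ⟨P, hP0, hP⟩ := exists_point (S := S) hV
  set H := LinearMap.ker (S.T P P) with hH
  have hH3 : 3 ≤ finrank ℂ H := by
    have h1 := LinearMap.finrank_range_add_finrank_ker (S.T P P)
    have h2 : finrank ℂ (LinearMap.range (S.T P P)) ≤ 1 := by
      have := Submodule.finrank_le (LinearMap.range (S.T P P))
      rwa [finrank_self] at this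
    rw [hV] at h1
    rw [hH]
    omega
  have hex : ∀ W : Submodule ℂ V, finrank ℂ W ≤ 2 → ∃ e ∈ H, e ∉ W := by
    intro W hW
    by_contra hcon
    push Not at hcon
    have := Submodule.finrank_mono (show H ≤ W from hcon)
    omega
  have hs1 : finrank ℂ (span ℂ {P}) = 1 := finrank_span_singleton hP0
  obtain ⟨e, heH, heP⟩ := hex (span ℂ {P}) (by rw [hs1]; norm_num)
  have hs2 := finrank_sup_single heP
  obtain ⟨f, hfH, hf⟩ := hex (span ℂ {P} ⊔ span ℂ {e}) (by rw [hs2, hs1])
  obtain ⟨x, y, hxy, h0⟩ := quad_zero (S.T P e e) (S.T P e f) (S.T P f f)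
  refine ⟨P, x • e + y • f, hP0, comb_ne heP hf hxy, hP, ?_, ?_⟩
  · exact H.add_mem (H.smul_mem _ heH) (H.smul_mem _ hfH)
  · rw [S.s13, S.sq_add, S.s13 e e P, S.s13 f f P, S.cyc e f P, S.cyc f P e]
    linear_combination h0

lemma exists_form [FiniteDimensional ℂ V] (hV : finrank ℂ V = 4) {U : Submodule ℂ V}
    (hU : finrank ℂ U = 2) {a b : Dual ℂ V} (ha : a ≠ 0) (haU : a ∈ U.dualAnnihilator) :
    ∃ d ∈ U.dualAnnihilator, ∀ x y : ℂ, x ^ 2 • d + (2 * x * y) • b + y ^ 2 • a = 0 →
      x = 0 ∧ y = 0 := by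
  by_cases hb : b ∈ span ℂ {a}
  · obtain ⟨r, rfl⟩ := mem_span_singleton.mp hb
    have h2 : finrank ℂ U.dualAnnihilator = 2 := by
      have := Subspace.finrank_add_finrank_dualAnnihilator_eq U
      omega
    have h3 : ∃ d ∈ U.dualAnnihilator, d ∉ span ℂ {a} := by
      by_contra hcon
      push Not at hcon
      have := Submodule.finrank_mono (show U.dualAnnihilator ≤ span ℂ {a} from hcon)
      rw [finrank_span_singleton ha] at this
      omega
    obtain ⟨d, hd, hda⟩ := h3
    refine ⟨d, hd, fun x y h => ?_⟩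
    have hx : x = 0 := by
      by_contra hx
      apply hda
      rw [← (span ℂ {a}).smul_mem_iff (pow_ne_zero 2 hx)]
      have h4 : x ^ 2 • d = (-(2 * x * y * r + y ^ 2)) • a := by
        have : x ^ 2 • d = -((2 * x * y) • r • a + y ^ 2 • a) := by
          rw [eq_neg_iff_add_eq_zero, ← add_assoc]
          exact h
        rw [this]
        module
      rw [h4]
      exact smul_mem _ _ (mem_span_singleton_self a)
    refine ⟨hx, ?_⟩
    rw [hx] at h
    have h5 : y ^ 2 • a = 0 := by simpa using h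
    rcases smul_eq_zero.mp h5 with h6 | h6
    · exact pow_eq_zero_iff (two_ne_zero) |>.mp h6
    · exact absurd h6 ha
  · refine ⟨a, haU, fun x y h => ?_⟩
    have hxy : 2 * x * y = 0 := by
      by_contra hxy
      apply hb
      rw [← (span ℂ {a}).smul_mem_iff hxy]
      have h4 : (2 * x * y) • b = (-(x ^ 2 + y ^ 2)) • a := by
        have : (2 * x * y) • b = -(x ^ 2 • a + y ^ 2 • a) := by
          rw [eq_neg_iff_add_eq_zero, ← h]
          abel
        rw [this]
        module
      rw [h4]
      exact smul_mem _ _ (mem_span_singleton_self a)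
    rw [hxy, zero_smul, add_zero, ← add_smul] at h
    rcases smul_eq_zero.mp h with h6 | h6
    · have h7 : x = 0 ∨ y = 0 := by
        rcases mul_eq_zero.mp hxy with h7 | h7
        · left
          rcases mul_eq_zero.mp h7 with h8 | h8
          · exact absurd h8 two_ne_zero
          · exact h8
        · right
          exact h7
      rcases h7 with h7 | h7
      · refine ⟨h7, ?_⟩
        rw [h7] at h6
        have : y ^ 2 = 0 := by linear_combination h6
        exact pow_eq_zero_iff (two_ne_zero) |>.mp this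
      · refine ⟨?_, h7⟩
        rw [h7] at h6
        have : x ^ 2 = 0 := by linear_combination h6
        exact pow_eq_zero_iff (two_ne_zero) |>.mp this
    · exact absurd h6 ha

theorem start [FiniteDimensional ℂ V] (hS : S.Smooth) (hV : finrank ℂ V = 4) :
    (∃ U : Submodule ℂ V, finrank ℂ U = 2 ∧ S.Iso U) ∨
    ∃ (l : V →ₗ[ℂ] ℂ) (c : ℂ) (U : Submodule ℂ V), finrank ℂ U = 2 ∧ (S.pert l c).Iso U ∧
      ∀ u ∈ U, (∀ w, (S.pert l c).T u u w = 0) → u = 0 := by
  obtain ⟨P, R, hP0, hR, h1, h2, h3⟩ := exists_flex (S := S) hV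
  have hU : finrank ℂ (span ℂ {P, R}) = 2 := by
    have h5 : span ℂ {P, R} = span ℂ {P} ⊔ span ℂ {R} := by
      rw [← span_union, Set.singleton_union]
    rw [h5, finrank_sup_single hR, finrank_span_singleton hP0]
  by_cases hc : S.T R R R = 0
  · left
    exact ⟨span ℂ {P, R}, hU, iso_span_pair h1 h2 h3 hc⟩
  · right
    set c := S.T R R R with hcdef
    have ha : S.T P P ≠ 0 := by
      intro h
      exact hP0 (hS P (fun w => by rw [h]; rfl))
    have haU : (S.T P P : Dual ℂ V) ∈ (span ℂ {P, R}).dualAnnihilator := by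
      rw [mem_dualAnnihilator]
      intro u hu
      obtain ⟨x, y, rfl⟩ := mem_span_pair.mp hu
      rw [map_add, map_smul, map_smul, h1, h2]
      simp
    obtain ⟨d, hd, hdz⟩ := exists_form (b := S.T P R) hV hU ha haU
    rw [mem_dualAnnihilator] at hd
    have hdP : d P = 0 := hd P (subset_span (Set.mem_insert _ _))
    have hdR : d R = 0 := hd R (subset_span (Set.mem_insert_of_mem _ rfl))
    have hRRP : S.T R R P = 0 := by
      rw [S.s13]
      exact h3
    set l : V →ₗ[ℂ] ℂ := c⁻¹ • (S.T R R - d) with hl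
    have hlw : ∀ w, c * l w = S.T R R w - d w := by
      intro w
      rw [hl, LinearMap.smul_apply, LinearMap.sub_apply, smul_eq_mul, mul_inv_cancel_left₀ hc]
    have hlP : l P = 0 := by
      have := hlw P
      rw [hRRP, hdP, sub_zero] at this
      exact (mul_eq_zero.mp this).resolve_left hc
    have hlR : l R = 1 := by
      have := hlw R
      rw [hdR, sub_zero, ← hcdef] at this
      exact mul_left_cancel₀ hc (by rw [this, mul_one])
    refine ⟨l, c, span ℂ {P, R}, hU, iso_span_pair ?_ ?_ ?_ ?_, ?_⟩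
    · rw [pert_T, h1, hlP]; ring
    · rw [pert_T, h2, hlP]; ring
    · rw [pert_T, h3, hlP]; ring
    · rw [pert_T, hlR, ← hcdef]; ring
    · intro u hu hw
      obtain ⟨y, x, rfl⟩ := mem_span_pair.mp hu
      have h6 : x ^ 2 • d + (2 * x * y) • (S.T P R : Dual ℂ V) + y ^ 2 • (S.T P P : Dual ℂ V)
          = 0 := by
        ext w
        have h7 := hw w
        rw [pert_T, S.sq_add, map_add, map_smul, map_smul, hlP, hlR] at h7
        simp only [smul_eq_mul] at h7
        simp only [LinearMap.add_apply, LinearMap.smul_apply, smul_eq_mul, LinearMap.zero_apply]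
        linear_combination h7 + x ^ 2 * hlw w
      obtain ⟨hx, hy⟩ := hdz x y h6
      rw [hx, hy]
      simp

end Tri

end Vale.Agent.P287.R2.H248
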